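import Mathlib

set_option autoImplicit false

namespace Crest.Agent.R211

open MeasureTheory Set
open scoped ENNReal

abbrev E2 := EuclideanSpace ℝ (Fin 2)
abbrev E3 := EuclideanSpace ℝ (Fin 3)

section general
variable {V : Type*} [NormedAddCommGroup V] [InnerProductSpace ℝ V]

/-- area of the parallelogram spanned by two vectors -/
noncomputable def gram (a b : V) : ℝ := Real.sqrt (‖a‖ ^ 2 * ‖b‖ ^ 2 - inner ℝ a b ^ 2)

lemma gram_nonneg (a b : V) : 0 ≤ gram a b := Real.sqrt_nonneg _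

lemma gram_arg_nonneg (a b : V) : 0 ≤ ‖a‖ ^ 2 * ‖b‖ ^ 2 - inner ℝ a b ^ 2 := by
  have h := abs_real_inner_le_norm a b
  have h2 : inner ℝ a b ^ 2 ≤ (‖a‖ * ‖b‖) ^ 2 := by
    rw [← sq_abs]; exact pow_le_pow_left₀ (abs_nonneg _) h 2
  nlinarith

lemma gram_sq (a b : V) : gram a b ^ 2 = ‖a‖ ^ 2 * ‖b‖ ^ 2 - inner ℝ a b ^ 2 :=
  Real.sq_sqrt (gram_arg_nonneg a b)

lemma gram_eq_of_sq {a b : V} {x : ℝ} (hx : 0 ≤ x)
    (h : x ^ 2 = ‖a‖ ^ 2 * ‖b‖ ^ 2 - inner ℝ a b ^ 2) : gram a b = x := by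
  unfold gram; rw [← h, Real.sqrt_sq hx]

/-- `gram` of linear combinations -/
lemma gram_comb (a b : V) (α β γ δ : ℝ) :
    gram (α • a + β • b) (γ • a + δ • b) = |α * δ - β * γ| * gram a b := by
  apply gram_eq_of_sq (mul_nonneg (abs_nonneg _) (gram_nonneg a b))
  rw [mul_pow, sq_abs, gram_sq]
  simp only [← real_inner_self_eq_norm_sq, inner_add_left, inner_add_right, real_inner_smul_left,
    real_inner_smul_right, real_inner_comm a b]
  ring

lemma gram_smul (a b : V) (α δ : ℝ) : gram (α • a) (δ • b) = |α * δ| * gram a b := by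
  simpa using gram_comb a b α 0 0 δ

lemma gram_self (a : V) : gram a a = 0 := by
  apply gram_eq_of_sq le_rfl
  rw [real_inner_self_eq_norm_sq]; ring

lemma gram_map {W : Type*} [NormedAddCommGroup W] [InnerProductSpace ℝ W] (T : V →ₗᵢ[ℝ] W)
    (a b : V) : gram (T a) (T b) = gram a b := by
  simp [gram]

/-- the set `{c + s a + t b : (s,t) ∈ S}` -/
def plane (c a b : V) (S : Set (ℝ × ℝ)) : Set V := (fun x : ℝ × ℝ => c + x.1 • a + x.2 • b) '' S

/-- the linear map `x ↦ x₀ a + x₁ b` -/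
def lin (a b : V) : E2 →ₗ[ℝ] V where
  toFun x := x 0 • a + x 1 • b
  map_add' x y := by simp only [PiLp.add_apply, add_smul]; abel
  map_smul' r x := by simp only [PiLp.smul_apply, smul_eq_mul, mul_smul, RingHom.id_apply, smul_add]

lemma normDet_lin (a b : V) : (lin a b).normDet = gram a b := by
  symm
  apply gram_eq_of_sq (LinearMap.normDet_nonneg _)
  have := LinearMap.normDet_sq_eq_det_gram (lin a b) (EuclideanSpace.basisFun (Fin 2) ℝ)
  simp only [RCLike.ofReal_real_eq_id, id] at this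
  rw [this, Matrix.det_fin_two]
  simp [lin, Matrix.gram_apply, real_inner_comm a b]
  ring

/-- the measurable equivalence between the Euclidean plane and `ℝ × ℝ` -/
noncomputable def e2 : E2 ≃ᵐ ℝ × ℝ :=
  (MeasurableEquiv.toLp 2 (Fin 2 → ℝ)).symm.trans MeasurableEquiv.finTwoArrow

lemma e2_apply (x : E2) : e2 x = (x 0, x 1) := rfl

lemma e2_mp : MeasurePreserving e2 volume volume :=
  (volume_preserving_finTwoArrow ℝ).comp (PiLp.volume_preserving_ofLp (Fin 2))

variable [MeasurableSpace V] [BorelSpace V]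

theorem measure_plane (c a b : V) (S : Set (ℝ × ℝ)) :
    μHE[2] (plane c a b S) = ENNReal.ofReal (gram a b) * volume S := by
  have h1 : plane c a b S = (fun y => c + y) '' ((lin a b) '' (e2 ⁻¹' S)) := by
    ext z
    simp only [plane, mem_image, mem_preimage]
    constructor
    · rintro ⟨x, hx, rfl⟩
      obtain ⟨y, rfl⟩ := e2.surjective x
      exact ⟨_, ⟨y, hx, rfl⟩, by simp [e2_apply, lin, add_assoc]⟩
    · rintro ⟨_, ⟨x, hx, rfl⟩, rfl⟩
      exact ⟨e2 x, hx, by simp [e2_apply, lin, add_assoc]⟩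
  have h2 := (lin a b).euclideanHausdorffMeasure_image_eq_normDet_mul_volume (e2 ⁻¹' S)
  rw [finrank_euclideanSpace_fin] at h2
  rw [h1, (isometry_add_left c).euclideanHausdorffMeasure_image, h2, normDet_lin,
    e2_mp.measure_preimage_equiv]

end general

/-- standard triangle -/
def tri0 : Set (ℝ × ℝ) := {x | 0 ≤ x.1 ∧ 0 ≤ x.2 ∧ x.1 + x.2 ≤ 1}

lemma volume_tri0 : volume tri0 = ENNReal.ofReal (1 / 2) := by
  have hm : MeasurableSet tri0 := by
    unfold tri0
    apply IsClosed.measurableSet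
    exact (isClosed_le continuous_const continuous_fst).inter
      ((isClosed_le continuous_const continuous_snd).inter
        (isClosed_le (continuous_fst.add continuous_snd) continuous_const))
  rw [Measure.volume_eq_prod, Measure.prod_apply hm]
  have : (fun x : ℝ => volume (Prod.mk x ⁻¹' tri0)) =
      (Icc (0 : ℝ) 1).indicator (fun x => ENNReal.ofReal (1 - x)) := by
    funext x
    by_cases hx : x ∈ Icc (0 : ℝ) 1
    · rw [indicator_of_mem hx]
      have : Prod.mk x ⁻¹' tri0 = Icc 0 (1 - x) := by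
        ext y; simp only [tri0, mem_preimage, mem_ofPred_eq, mem_Icc]
        constructor
        · rintro ⟨_, h2, h3⟩; exact ⟨h2, by linarith⟩
        · rintro ⟨h2, h3⟩; exact ⟨hx.1, h2, by linarith⟩
      rw [this]; simp
    · rw [indicator_of_notMem hx]
      have : Prod.mk x ⁻¹' tri0 = ∅ := by
        ext y; simp only [tri0, mem_preimage, mem_ofPred_eq, mem_empty_iff_false, iff_false]
        rintro ⟨h1, h2, h3⟩
        exact hx ⟨h1, by linarith⟩
      rw [this]; simp
  rw [this, lintegral_indicator measurableSet_Icc, ← ofReal_integral_eq_lintegral_ofReal]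
  · congr 1
    rw [integral_Icc_eq_integral_Ioc, ← intervalIntegral.integral_of_le zero_le_one]
    rw [intervalIntegral.integral_sub (by simp) (by simp)]
    simp; norm_num
  · exact (continuous_const.sub continuous_id).integrableOn_Icc
  · filter_upwards [ae_restrict_mem measurableSet_Icc] with x hx
    simp only [Pi.zero_apply]; linarith [hx.2]

section general2
variable {V : Type*} [NormedAddCommGroup V] [InnerProductSpace ℝ V]

lemma mem_convexHull_three {p q r x : V} : x ∈ convexHull ℝ ({p, q, r} : Set V) ↔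
    ∃ s t : ℝ, 0 ≤ s ∧ 0 ≤ t ∧ s + t ≤ 1 ∧ x = p + s • (q - p) + t • (r - p) := by
  constructor
  · intro hx
    have hc : Convex ℝ {x : V | ∃ s t : ℝ, 0 ≤ s ∧ 0 ≤ t ∧ s + t ≤ 1 ∧
        x = p + s • (q - p) + t • (r - p)} := by
      rintro _ ⟨s, t, hs, ht, hst, rfl⟩ _ ⟨s', t', hs', ht', hst', rfl⟩ a b ha hb hab
      refine ⟨a * s + b * s', a * t + b * t', by positivity, by positivity, by nlinarith, ?_⟩
      have hb' : b = 1 - a := by linarith
      subst hb'
      module
    refine convexHull_min ?_ hc hx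
    rintro y (rfl | rfl | rfl)
    · exact ⟨0, 0, le_rfl, le_rfl, by norm_num, by simp⟩
    · exact ⟨1, 0, by norm_num, le_rfl, by norm_num, by simp⟩
    · exact ⟨0, 1, le_rfl, by norm_num, by norm_num, by simp⟩
  · rintro ⟨s, t, hs, ht, hst, rfl⟩
    have hc := convex_convexHull ℝ ({p, q, r} : Set V)
    have hp : p ∈ convexHull ℝ ({p, q, r} : Set V) := subset_convexHull ℝ _ (by simp)
    have hq : q ∈ convexHull ℝ ({p, q, r} : Set V) := subset_convexHull ℝ _ (by simp)
    have hr : r ∈ convexHull ℝ ({p, q, r} : Set V) := subset_convexHull ℝ _ (by simp)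
    have := hc.sum_mem (t := Finset.univ) (w := ![1 - s - t, s, t]) (z := ![p, q, r])
      (by intro i _; fin_cases i <;> simp <;> linarith) (by simp only [Fin.sum_univ_three]; simp; ring)
      (by intro i _; fin_cases i <;> simpa)
    convert this using 1
    simp [Fin.sum_univ_three]
    module

lemma convexHull_three_eq (p q r : V) :
    convexHull ℝ ({p, q, r} : Set V) = plane p (q - p) (r - p) tri0 := by
  ext x
  rw [mem_convexHull_three]
  simp only [plane, tri0, mem_image, mem_ofPred_eq]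
  constructor
  · rintro ⟨s, t, hs, ht, hst, rfl⟩; exact ⟨(s, t), ⟨hs, ht, hst⟩, rfl⟩
  · rintro ⟨⟨s, t⟩, ⟨hs, ht, hst⟩, rfl⟩; exact ⟨s, t, hs, ht, hst, rfl⟩

/-- the parallelogram `c + [0,1] a + [0,1] b` -/
def par (c a b : V) : Set V :=
  {x | ∃ s ∈ Icc (0 : ℝ) 1, ∃ t ∈ Icc (0 : ℝ) 1, x = c + s • a + t • b}

lemma par_eq (c a b : V) : par c a b = plane c a b (Icc 0 1 ×ˢ Icc 0 1) := by
  ext x
  simp only [par, plane, mem_image, mem_ofPred_eq, mem_prod]
  constructor
  · rintro ⟨s, hs, t, ht, rfl⟩; exact ⟨(s, t), ⟨hs, ht⟩, rfl⟩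
  · rintro ⟨⟨s, t⟩, ⟨hs, ht⟩, rfl⟩; exact ⟨s, hs, t, ht, rfl⟩

lemma par_compact (c a b : V) : IsCompact (par c a b) := by
  rw [par_eq]
  exact (isCompact_Icc.prod isCompact_Icc).image (by fun_prop)

variable [MeasurableSpace V] [BorelSpace V]

theorem measure_triangle (p q r : V) :
    μHE[2] (convexHull ℝ ({p, q, r} : Set V)) = ENNReal.ofReal (gram (q - p) (r - p) / 2) := by
  rw [convexHull_three_eq, measure_plane, volume_tri0, ← ENNReal.ofReal_mul (gram_nonneg _ _)]
  congr 1; ring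

theorem toReal_triangle (p q r : V) :
    (μHE[2] (convexHull ℝ ({p, q, r} : Set V))).toReal = gram (q - p) (r - p) / 2 := by
  rw [measure_triangle, ENNReal.toReal_ofReal (by have := gram_nonneg (q - p) (r - p); positivity)]

theorem measure_par (c a b : V) : μHE[2] (par c a b) = ENNReal.ofReal (gram a b) := by
  rw [par_eq, measure_plane, Measure.volume_eq_prod, Measure.prod_prod]
  simp

theorem toReal_par (c a b : V) : (μHE[2] (par c a b)).toReal = gram a b := by
  rw [measure_par, ENNReal.toReal_ofReal (gram_nonneg _ _)]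

end general2

/-- bounded subsets of a plane in three-space have finite area -/
lemma measure_plane_bounded_lt_top {u : E3} (hu : u ≠ 0) {B : Set E3} (hB : Bornology.IsBounded B)
    (hBu : ∀ x ∈ B, inner ℝ x u = 0) : μHE[2] B < ∞ := by
  let W : Submodule ℝ E3 := (ℝ ∙ u)ᗮ
  have hW : Module.finrank ℝ W = 2 := by
    have h1 := (ℝ ∙ u).finrank_add_finrank_orthogonal
    rw [finrank_span_singleton hu, finrank_euclideanSpace_fin] at h1
    change 1 + Module.finrank ℝ W = 3 at h1
    omega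
  have h1 : B = Subtype.val '' (Subtype.val ⁻¹' B : Set W) := by
    ext x
    constructor
    · intro hx
      refine ⟨⟨x, ?_⟩, hx, rfl⟩
      rw [Submodule.mem_orthogonal_singleton_iff_inner_left]
      exact hBu x hx
    · rintro ⟨y, hy, rfl⟩; exact hy
  rw [h1, isometry_subtype_coe.euclideanHausdorffMeasure_image, ← hW,
    InnerProductSpace.euclideanHausdorffMeasure_eq_volume]
  apply Bornology.IsBounded.measure_lt_top
  exact isometry_subtype_coe.antilipschitz.isBounded_preimage hB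

/-- enlarge a compact planar base to a relatively open one -/
lemma exists_open_base {u : E3} (hu : u ≠ 0) {B : Set E3} (hB : IsCompact B)
    (hBu : ∀ x ∈ B, inner ℝ x u = 0) {η : ℝ} (hη : 0 < η) :
    ∃ B' : Set E3, B ⊆ B' ∧ (Bornology.IsBounded B' ∧ ∃ O : Set E3, IsOpen O ∧
      B' = O ∩ {x | inner ℝ x u = 0}) ∧ (μHE[2] B').toReal ≤ (μHE[2] B).toReal + η := by
  set H : Set E3 := {x | inner ℝ x u = 0} with hH
  have hHm : MeasurableSet H := (isClosed_eq (by fun_prop) continuous_const).measurableSet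
  have hfin : ∀ r, (μHE[2].restrict H) (Metric.thickening r B) < ∞ := by
    intro r
    rw [Measure.restrict_apply' hHm]
    exact measure_plane_bounded_lt_top hu (hB.isBounded.thickening.subset inter_subset_left)
      (fun x hx => hx.2)
  have hlim := tendsto_measure_thickening_of_isClosed (μ := μHE[2].restrict H) (s := B)
    ⟨1, one_pos, (hfin 1).ne⟩ hB.isClosed
  have hBB : (μHE[2].restrict H) B = μHE[2] B := by
    rw [Measure.restrict_apply' hHm, inter_eq_left.2 (show B ⊆ H from fun x hx => hBu x hx)]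
  rw [hBB] at hlim
  have hBfin : μHE[2] B < ∞ := measure_plane_bounded_lt_top hu hB.isBounded hBu
  have hlim2 := (ENNReal.tendsto_toReal hBfin.ne).comp hlim
  have hev := hlim2.eventually (gt_mem_nhds (show (μHE[2] B).toReal < (μHE[2] B).toReal + η by
    linarith))
  obtain ⟨r, hr, hr0⟩ := (hev.and self_mem_nhdsWithin).exists
  refine ⟨Metric.thickening r B ∩ H, ?_, ⟨hB.isBounded.thickening.subset inter_subset_left,
    _, Metric.isOpen_thickening, rfl⟩, ?_⟩
  · intro x hx
    exact ⟨Metric.self_subset_thickening hr0 B hx, hBu x hx⟩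
  · simp only [Function.comp] at hr
    rw [Measure.restrict_apply' hHm] at hr
    exact hr.le

/-- determinant of three vectors -/
def det3 (a b c : E3) : ℝ :=
  a 0 * (b 1 * c 2 - b 2 * c 1) - a 1 * (b 0 * c 2 - b 2 * c 0) + a 2 * (b 0 * c 1 - b 1 * c 0)

lemma inner3 (a b : E3) : inner ℝ a b = a 0 * b 0 + a 1 * b 1 + a 2 * b 2 := by
  simp [PiLp.inner_apply, Fin.sum_univ_three]; ring

lemma normsq3 (a : E3) : ‖a‖ ^ 2 = a 0 ^ 2 + a 1 ^ 2 + a 2 ^ 2 := by
  rw [← real_inner_self_eq_norm_sq, inner3]; ring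

/-- area of the projection of a parallelogram along a unit vector -/
lemma gram_proj {v : E3} (hv : ‖v‖ = 1) (a b : E3) :
    gram (a - inner ℝ a v • v) (b - inner ℝ b v • v) = |det3 a b v| := by
  apply gram_eq_of_sq (abs_nonneg _)
  have h := normsq3 v
  rw [hv] at h
  rw [sq_abs, normsq3, normsq3, inner3, inner3, inner3]
  simp only [PiLp.sub_apply, PiLp.smul_apply, smul_eq_mul, det3]
  set A := a 0 * v 0 + a 1 * v 1 + a 2 * v 2 with hA
  set B := b 0 * v 0 + b 1 * v 1 + b 2 * v 2 with hB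
  have e1 : (a 0 - A * v 0) ^ 2 + (a 1 - A * v 1) ^ 2 + (a 2 - A * v 2) ^ 2 =
      a 0 ^ 2 + a 1 ^ 2 + a 2 ^ 2 - A ^ 2 := by
    linear_combination (-A ^ 2) * h + 2 * A * hA
  have e2 : (b 0 - B * v 0) ^ 2 + (b 1 - B * v 1) ^ 2 + (b 2 - B * v 2) ^ 2 =
      b 0 ^ 2 + b 1 ^ 2 + b 2 ^ 2 - B ^ 2 := by
    linear_combination (-B ^ 2) * h + 2 * B * hB
  have e3 : (a 0 - A * v 0) * (b 0 - B * v 0) + (a 1 - A * v 1) * (b 1 - B * v 1) +
      (a 2 - A * v 2) * (b 2 - B * v 2) = a 0 * b 0 + a 1 * b 1 + a 2 * b 2 - A * B := by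
    linear_combination (-A * B) * h + A * hB + B * hA
  rw [e1, e2, e3, hA, hB]
  linear_combination (-((a 0 ^ 2 + a 1 ^ 2 + a 2 ^ 2) * (b 0 ^ 2 + b 1 ^ 2 + b 2 ^ 2) -
    (a 0 * b 0 + a 1 * b 1 + a 2 * b 2) ^ 2)) * h

end Crest.Agent.R211
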