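import Mathlib
import Crest.Agent.R211.Area

set_option autoImplicit false
set_option linter.unreachableTactic false
set_option linter.unusedTactic false

namespace Crest.Agent.R211

open MeasureTheory Set
open scoped ENNReal

/-- orthogonal projection along a unit vector -/
noncomputable def prj (v : E3) : E3 →ₗ[ℝ] E3 where
  toFun y := y - inner ℝ y v • v
  map_add' x y := by rw [inner_add_left, add_smul]; abel
  map_smul' r x := by simp only [real_inner_smul_left, RingHom.id_apply, smul_sub, mul_smul]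

lemma prj_apply (v y : E3) : prj v y = y - inner ℝ y v • v := rfl

lemma prj_inner {v : E3} (hv : ‖v‖ = 1) (y : E3) : inner ℝ (prj v y) v = 0 := by
  rw [prj_apply, inner_sub_left, real_inner_smul_left, real_inner_self_eq_norm_sq, hv]; ring

lemma gram_prj {v : E3} (hv : ‖v‖ = 1) (a b : E3) : gram (prj v a) (prj v b) = |det3 a b v| :=
  gram_proj hv a b

lemma det3_prj (a b v : E3) : det3 a (prj v b) v = det3 a b v := by
  simp only [det3, prj_apply, PiLp.sub_apply, PiLp.smul_apply, smul_eq_mul]; ring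

lemma tri_sub {v : E3} {K : Set E3} (hK : Convex ℝ K) {A B C : E3} (hA : A ∈ K) (hB : B ∈ K)
    (hC : C ∈ K) : convexHull ℝ {prj v A, prj v B, prj v C} ⊆ prj v '' K := by
  apply convexHull_min _ (hK.linear_image (prj v))
  rintro _ (rfl | rfl | rfl) <;> exact mem_image_of_mem _ ‹_›

lemma measure_tri_prj {v : E3} (hv : ‖v‖ = 1) (A B C : E3) :
    μHE[2] (convexHull ℝ ({prj v A, prj v B, prj v C} : Set E3)) =
      ENNReal.ofReal (|det3 (B - A) (C - A) v| / 2) := by
  rw [measure_triangle, ← map_sub, ← map_sub, gram_prj hv]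

lemma tri_le {v : E3} (hv : ‖v‖ = 1) {K : Set E3} (hK : Convex ℝ K) {A B C : E3} (hA : A ∈ K)
    (hB : B ∈ K) (hC : C ∈ K) :
    ENNReal.ofReal (|det3 (B - A) (C - A) v| / 2) ≤ μHE[2] (prj v '' K) := by
  rw [← measure_tri_prj hv]
  exact measure_mono (tri_sub hK hA hB hC)

lemma quad_le {v : E3} (hv : ‖v‖ = 1) {K : Set E3} (hK : Convex ℝ K) {A B C D : E3} (hA : A ∈ K)
    (hB : B ∈ K) (hC : C ∈ K) (hD : D ∈ K) :
    ENNReal.ofReal (|det3 (B - A) (D - C) v| / 2) ≤ μHE[2] (prj v '' K) := by
  set s := det3 (B - A) (C - A) v with hs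
  set t := det3 (B - A) (D - A) v with ht
  have e : det3 (B - A) (D - C) v = t - s := by
    simp only [hs, ht, det3, PiLp.sub_apply]; ring
  rw [e]
  have h1 := tri_le hv hK hA hB hC
  have h2 := tri_le hv hK hA hB hD
  rw [← hs] at h1
  rw [← ht] at h2
  by_cases hst : 0 ≤ s * t
  · rcases le_total |s| |t| with h | h
    · refine le_trans (ENNReal.ofReal_le_ofReal ?_) h2
      have : |t - s| ≤ |t| := by
        rcases abs_cases s with ⟨e1, _⟩ | ⟨e1, _⟩ <;> rcases abs_cases t with ⟨e2, _⟩ | ⟨e2, _⟩ <;>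
          rw [e1, e2] at h <;> rw [e2, abs_le] <;> constructor <;> nlinarith
      linarith
    · refine le_trans (ENNReal.ofReal_le_ofReal ?_) h1
      have : |t - s| ≤ |s| := by
        rcases abs_cases s with ⟨e1, _⟩ | ⟨e1, _⟩ <;> rcases abs_cases t with ⟨e2, _⟩ | ⟨e2, _⟩ <;>
          rw [e1, e2] at h <;> rw [e1, abs_le] <;> constructor <;> nlinarith
      linarith
  · push Not at hst
    set T1 := convexHull ℝ ({prj v A, prj v B, prj v C} : Set E3)
    set T2 := convexHull ℝ ({prj v A, prj v B, prj v D} : Set E3)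
    have m2 : MeasurableSet T2 :=
      ((Set.toFinite _).isCompact_convexHull ℝ).isClosed.measurableSet
    have hint : μHE[2] (T1 ∩ T2) = 0 := by
      have hsub : T1 ∩ T2 ⊆ convexHull ℝ ({prj v A, prj v B, prj v B} : Set E3) := by
        rintro x ⟨hx1, hx2⟩
        obtain ⟨α, β, hα, hβ, hαβ, e1⟩ := mem_convexHull_three.1 hx1
        obtain ⟨α', β', hα', hβ', hαβ', e2⟩ := mem_convexHull_three.1 hx2
        have f1 : det3 (B - A) (x - prj v A) v = β * s := by
          rw [e1, hs, ← det3_prj _ (C - A), map_sub]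
          have := det3_prj (B - A) (B - A) v
          rw [map_sub] at this
          simp only [det3, PiLp.sub_apply, PiLp.add_apply, PiLp.smul_apply, smul_eq_mul] at this ⊢
          linear_combination α * this
        have f2 : det3 (B - A) (x - prj v A) v = β' * t := by
          rw [e2, ht, ← det3_prj _ (D - A), map_sub]
          have := det3_prj (B - A) (B - A) v
          rw [map_sub] at this
          simp only [det3, PiLp.sub_apply, PiLp.add_apply, PiLp.smul_apply, smul_eq_mul] at this ⊢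
          linear_combination α' * this
        have hs0 : s ≠ 0 := by intro h; rw [h] at hst; simp at hst
        have hβ0 : β = 0 := by
          have h3 : β * s ^ 2 ≤ 0 := by
            have : β * s ^ 2 = β' * (s * t) := by linear_combination s * f2 - s * f1
            rw [this]; exact mul_nonpos_of_nonneg_of_nonpos hβ' hst.le
          have h4 : 0 < s ^ 2 := by positivity
          nlinarith
        exact mem_convexHull_three.2 ⟨α, 0, hα, le_rfl, by linarith, by rw [e1, hβ0]; simp⟩
      apply measure_mono_null hsub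
      rw [measure_triangle, gram_self]; simp
    have hu := measure_union_add_inter (μ := μHE[2]) T1 m2
    rw [hint, add_zero, measure_tri_prj hv, measure_tri_prj hv, ← hs, ← ht,
      ← ENNReal.ofReal_add (by positivity) (by positivity)] at hu
    calc ENNReal.ofReal (|t - s| / 2) ≤ ENNReal.ofReal (|s| / 2 + |t| / 2) := by
          apply ENNReal.ofReal_le_ofReal
          have := abs_sub t s
          linarith
      _ = μHE[2] (T1 ∪ T2) := hu.symm
      _ ≤ _ := measure_mono (union_subset (tri_sub hK hA hB hC) (tri_sub hK hA hB hD))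

/-- the standard regular tetrahedron -/
noncomputable def K0 : Set E3 :=
  convexHull ℝ {!₂[1, 0, 0], !₂[-1, 0, 0], !₂[0, 1, Real.sqrt 2], !₂[0, -1, Real.sqrt 2]}

lemma K0_compact : IsCompact K0 := (Set.toFinite _).isCompact_convexHull ℝ

lemma key_ineq {h a b c : ℝ} (hh : h ^ 2 = 2) (h0 : 0 < h) (ha : 0 ≤ a) (hb : 0 ≤ b) (hc : 0 ≤ c)
    (hn : a ^ 2 + b ^ 2 + c ^ 2 = 1) : h ≤ 2 * c ∨ h ≤ h * (a + b) ∨ h ≤ h * a + c ∨ h ≤ h * b + c := by
  by_contra hcon
  push Not at hcon
  obtain ⟨h1, h2, h3, h4⟩ := hcon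
  obtain ⟨γ, rfl⟩ : ∃ γ, c = h * γ := ⟨c / h, by field_simp⟩
  have g0 : 0 ≤ γ := by
    by_contra hneg; push Not at hneg; nlinarith
  have g1 : γ < 1 / 2 := by nlinarith
  have g2 : a + b < 1 := by nlinarith
  have g3 : a + γ < 1 := by nlinarith
  have g4 : b + γ < 1 := by nlinarith
  have g5 : a ^ 2 + b ^ 2 + 2 * γ ^ 2 = 1 := by rw [mul_pow, hh] at hn; exact hn
  rcases le_total a b with hab | hab
  · rcases le_total a γ with h5 | h5 <;> nlinarith
  · rcases le_total b γ with h5 | h5 <;> nlinarith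

theorem proj_K0_ge {v : E3} (hv : ‖v‖ = 1) :
    ENNReal.ofReal (Real.sqrt 2) ≤ μHE[2] (prj v '' K0) := by
  have hK : Convex ℝ K0 := convex_convexHull _ _
  set h := Real.sqrt 2 with hh
  have hA : (!₂[1, 0, 0] : E3) ∈ K0 := subset_convexHull ℝ _ (by simp)
  have hB : (!₂[-1, 0, 0] : E3) ∈ K0 := subset_convexHull ℝ _ (by simp)
  have hC : (!₂[0, 1, h] : E3) ∈ K0 := subset_convexHull ℝ _ (by simp [hh])
  have hD : (!₂[0, -1, h] : E3) ∈ K0 := subset_convexHull ℝ _ (by simp [hh])
  have h2 : h ^ 2 = 2 := Real.sq_sqrt (by norm_num)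
  have h0 : 0 < h := by positivity
  have hn := normsq3 v
  rw [hv, ← sq_abs (v 0), ← sq_abs (v 1), ← sq_abs (v 2)] at hn
  have q1 := quad_le hv hK hA hB hC hD
  have q2 := quad_le hv hK hA hC hB hD
  have q3 := quad_le hv hK hA hD hB hC
  have t1 := tri_le hv hK hA hB hC
  have t2 := tri_le hv hK hA hB hD
  have t3 := tri_le hv hK hC hD hA
  have t4 := tri_le hv hK hC hD hB
  have fin : ∀ {d : ℝ}, ENNReal.ofReal (|d| / 2) ≤ μHE[2] (prj v '' K0) → (2 * h ≤ d ∨ 2 * h ≤ -d) →
      ENNReal.ofReal h ≤ μHE[2] (prj v '' K0) := by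
    intro d hd hor
    refine le_trans (ENNReal.ofReal_le_ofReal ?_) hd
    have := le_abs_self d
    have := neg_abs_le d
    rcases hor with h | h <;> linarith
  rcases key_ineq h2 h0 (abs_nonneg (v 0)) (abs_nonneg (v 1)) (abs_nonneg (v 2)) (by linarith) with
    k | k | k | k
  · apply fin q1
    simp only [det3]; simp
    rcases abs_cases (v 2) with ⟨e, _⟩ | ⟨e, _⟩ <;> rw [e] at k
    · left; linarith
    · right; linarith
  · rcases abs_cases (v 0) with ⟨e, _⟩ | ⟨e, _⟩ <;> rcases abs_cases (v 1) with ⟨e', _⟩ | ⟨e', _⟩ <;>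
      rw [e, e'] at k
    · apply fin q2; simp only [det3]; simp; first | (left; linarith) | (right; linarith)
    · apply fin q3; simp only [det3]; simp; first | (left; linarith) | (right; linarith)
    · apply fin q3; simp only [det3]; simp; first | (left; linarith) | (right; linarith)
    · apply fin q2; simp only [det3]; simp; first | (left; linarith) | (right; linarith)
  · rcases abs_cases (v 0) with ⟨e, _⟩ | ⟨e, _⟩ <;> rcases abs_cases (v 2) with ⟨e', _⟩ | ⟨e', _⟩ <;>
      rw [e, e'] at k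
    · apply fin t3; simp only [det3]; simp; first | (left; linarith) | (right; linarith)
    · apply fin t4; simp only [det3]; simp; first | (left; linarith) | (right; linarith)
    · apply fin t4; simp only [det3]; simp; first | (left; linarith) | (right; linarith)
    · apply fin t3; simp only [det3]; simp; first | (left; linarith) | (right; linarith)
  · rcases abs_cases (v 1) with ⟨e, _⟩ | ⟨e, _⟩ <;> rcases abs_cases (v 2) with ⟨e', _⟩ | ⟨e', _⟩ <;>
      rw [e, e'] at k
    · apply fin t2; simp only [det3]; simp; first | (left; linarith) | (right; linarith)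
    · apply fin t1; simp only [det3]; simp; first | (left; linarith) | (right; linarith)
    · apply fin t1; simp only [det3]; simp; first | (left; linarith) | (right; linarith)
    · apply fin t2; simp only [det3]; simp; first | (left; linarith) | (right; linarith)

lemma norm_e0 : ‖(!₂[1, 0, 0] : E3)‖ = 1 := by
  have := normsq3 !₂[1, 0, 0]
  apply (pow_eq_one_iff_of_nonneg (norm_nonneg _) two_ne_zero).1
  rw [this]; simp

theorem proj_K0_eq : μHE[2] (prj !₂[1, 0, 0] '' K0) = ENNReal.ofReal (Real.sqrt 2) := by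
  have hv := norm_e0
  apply le_antisymm _ (proj_K0_ge hv)
  set h := Real.sqrt 2 with hh
  have hsub : prj !₂[1, 0, 0] '' K0 ⊆ convexHull ℝ ({prj !₂[1, 0, 0] !₂[1, 0, 0],
      prj !₂[1, 0, 0] !₂[0, 1, h], prj !₂[1, 0, 0] !₂[0, -1, h]} : Set E3) := by
    rw [K0, LinearMap.image_convexHull]
    apply convexHull_mono
    rintro _ ⟨y, (rfl | rfl | rfl | rfl), rfl⟩
    · simp
    · left
      ext i; fin_cases i <;> simp [prj_apply, inner3, hv]
    · simp [hh]
    · simp [hh]
  refine le_trans (measure_mono hsub) ?_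
  rw [measure_tri_prj hv]
  apply ENNReal.ofReal_le_ofReal
  have h0 : 0 < h := by positivity
  simp only [det3]; simp
  rw [abs_of_nonneg (by linarith)]; linarith

lemma proj_lt_top {v : E3} (hv : ‖v‖ = 1) {K : Set E3} (hK : IsCompact K) :
    μHE[2] (prj v '' K) < ∞ := by
  apply measure_plane_bounded_lt_top (u := v) (by intro h; rw [h] at hv; simp at hv)
  · exact (hK.image (prj v).continuous_of_finiteDimensional).isBounded
  · rintro _ ⟨y, _, rfl⟩; exact prj_inner hv y

lemma mem_K0 {x : E3} (hx : x ∈ K0) :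
    ∃ ζ : ℝ, x 2 = Real.sqrt 2 * ζ ∧ |x 0| ≤ 1 - ζ ∧ |x 1| ≤ ζ := by
  have hc : Convex ℝ {x : E3 | ∃ ζ : ℝ, x 2 = Real.sqrt 2 * ζ ∧ |x 0| ≤ 1 - ζ ∧ |x 1| ≤ ζ} := by
    rintro x ⟨ζ, h1, h2, h3⟩ y ⟨ζ', h1', h2', h3'⟩ a b ha hb hab
    refine ⟨a * ζ + b * ζ', ?_, ?_, ?_⟩
    · simp [h1, h1']; ring
    · simp only [PiLp.add_apply, PiLp.smul_apply, smul_eq_mul]
      rw [abs_le] at *
      constructor <;> nlinarith [h2.1, h2.2, h2'.1, h2'.2]
    · simp only [PiLp.add_apply, PiLp.smul_apply, smul_eq_mul]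
      rw [abs_le] at *
      constructor <;> nlinarith [h3.1, h3.2, h3'.1, h3'.2]
  refine convexHull_min ?_ hc hx
  rintro _ (rfl | rfl | rfl | rfl)
  · exact ⟨0, by simp⟩
  · exact ⟨0, by simp⟩
  · exact ⟨1, by simp⟩
  · exact ⟨1, by simp⟩

end Crest.Agent.R211
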