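import Mathlib
import Crest.Agent.R211.Proj

set_option autoImplicit false

namespace Crest.Agent.R211

open MeasureTheory Set
open scoped ENNReal

/-- a finite cover by cylinders over triangles -/
def TriCover {ι : Type} (K : Set E3) (u p q r : ι → E3) : Prop :=
  (∀ i, ‖u i‖ = 1) ∧
  (∀ i, inner ℝ (p i) (u i) = 0 ∧ inner ℝ (q i) (u i) = 0 ∧ inner ℝ (r i) (u i) = 0) ∧
  K ⊆ ⋃ i, {x : E3 | ∃ b ∈ convexHull ℝ {p i, q i, r i}, ∃ t : ℝ, x = b + t • u i}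

lemma TriCover.reindex {ι κ : Type} {K : Set E3} {u p q r : ι → E3} (h : TriCover K u p q r)
    (e : κ ≃ ι) : TriCover K (u ∘ e) (p ∘ e) (q ∘ e) (r ∘ e) := by
  refine ⟨fun i => h.1 _, fun i => h.2.1 _, fun x hx => ?_⟩
  obtain ⟨i, hi⟩ := mem_iUnion.1 (h.2.2 hx)
  obtain ⟨j, rfl⟩ := e.surjective i
  exact mem_iUnion.2 ⟨j, hi⟩

lemma TriCover.pad {ι : Type} [Fintype ι] {K : Set E3} {u p q r : ι → E3} (h : TriCover K u p q r)
    (i₀ : ι) (h0 : 0 < gram (q i₀ - p i₀) (r i₀ - p i₀)) {A : ℝ}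
    (hA : ∑ i, gram (q i - p i) (r i - p i) / 2 ≤ A) :
    ∃ q' r' : ι → E3, TriCover K u p q' r' ∧ ∑ i, gram (q' i - p i) (r' i - p i) / 2 = A := by
  classical
  set S := ∑ i, gram (q i - p i) (r i - p i) / 2 with hS
  set g := gram (q i₀ - p i₀) (r i₀ - p i₀) with hg
  set l := Real.sqrt (1 + 2 * (A - S) / g) with hl
  have h1 : 0 ≤ 2 * (A - S) / g := div_nonneg (by linarith) h0.le
  have hl2 : l ^ 2 = 1 + 2 * (A - S) / g := Real.sq_sqrt (by linarith)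
  have hl1 : 1 ≤ l := by
    rw [hl]; apply Real.le_sqrt_of_sq_le; linarith
  let lam : ι → ℝ := fun i => if i = i₀ then l else 1
  have hlam : ∀ i, 1 ≤ lam i := fun i => by
    simp only [lam]; split_ifs
    · exact hl1
    · exact le_rfl
  refine ⟨fun i => p i + lam i • (q i - p i), fun i => p i + lam i • (r i - p i),
    ⟨h.1, fun i => ?_, fun x hx => ?_⟩, ?_⟩
  · obtain ⟨a, b, c⟩ := h.2.1 i
    simp only [inner_add_left, real_inner_smul_left, inner_sub_left, a, b, c]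
    simp
  · obtain ⟨i, b, hb, t, rfl⟩ := mem_iUnion.1 (h.2.2 hx)
    refine mem_iUnion.2 ⟨i, b, ?_, t, rfl⟩
    obtain ⟨α, β, hα, hβ, hαβ, rfl⟩ := mem_convexHull_three.1 hb
    have hp : 0 < lam i := by linarith [hlam i]
    refine mem_convexHull_three.2 ⟨α / lam i, β / lam i, by positivity, by positivity, ?_, ?_⟩
    · rw [← add_div, div_le_one hp]; linarith [hlam i]
    · simp only [add_sub_cancel_left, smul_smul]
      rw [div_mul_cancel₀ _ hp.ne', div_mul_cancel₀ _ hp.ne']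
  · simp only [add_sub_cancel_left, gram_smul]
    have : ∀ i, |lam i * lam i| * gram (q i - p i) (r i - p i) / 2 =
        gram (q i - p i) (r i - p i) / 2 + if i = i₀ then A - S else 0 := by
      intro i
      simp only [lam]
      split_ifs with hi
      · subst hi
        rw [abs_mul_self, ← sq, hl2, ← hg]
        field_simp
      · simp
    simp only [this, Finset.sum_add_distrib, Finset.sum_ite_eq', Finset.mem_univ, if_true]
    rw [← hS]; ring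

/-- unit vector in the direction of `d` -/
noncomputable def unit (d : E3) : E3 := ‖d‖⁻¹ • d

lemma norm_unit {d : E3} (hd : d ≠ 0) : ‖unit d‖ = 1 := norm_smul_inv_norm (𝕜 := ℝ) hd

lemma det3_unit (a b d : E3) : det3 a b (unit d) = det3 a b d / ‖d‖ := by
  simp only [det3, unit, PiLp.smul_apply, smul_eq_mul]; ring

lemma prj_smul_self {d : E3} (hd : d ≠ 0) (τ : ℝ) : prj (unit d) (τ • d) = 0 := by
  have hn : ‖d‖ ≠ 0 := norm_ne_zero_iff.2 hd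
  rw [map_smul, prj_apply, unit, real_inner_smul_right, real_inner_self_eq_norm_sq, smul_smul]
  have : ‖d‖⁻¹ * ‖d‖ ^ 2 * ‖d‖⁻¹ = 1 := by field_simp
  rw [this]; simp

lemma oblique_mem {d : E3} (hd : d ≠ 0) {P Q R x : E3} {α β τ : ℝ} (hα : 0 ≤ α) (hβ : 0 ≤ β)
    (hαβ : α + β ≤ 1) (hx : x = P + α • (Q - P) + β • (R - P) + τ • d) :
    ∃ b ∈ convexHull ℝ {prj (unit d) P, prj (unit d) Q, prj (unit d) R},
      ∃ t : ℝ, x = b + t • unit d := by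
  refine ⟨prj (unit d) x, ?_, inner ℝ x (unit d), by rw [prj_apply]; abel⟩
  refine mem_convexHull_three.2 ⟨α, β, hα, hβ, hαβ, ?_⟩
  rw [hx]
  simp only [map_add, prj_smul_self hd, map_smul, map_sub, add_zero]

lemma discrete_ivt (g : ℕ → ℝ) (N : ℕ) (hN : 0 < N) (h0 : g 0 ≤ 0) (h1 : 0 ≤ g N) :
    ∃ i < N, g i ≤ 0 ∧ 0 ≤ g (i + 1) := by
  induction N with
  | zero => omega
  | succ n ih =>
    by_cases hn : g n ≤ 0
    · exact ⟨n, by omega, hn, h1⟩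
    · push Not at hn
      have hn0 : 0 < n := by
        rcases Nat.eq_zero_or_pos n with h | h
        · subst h; linarith
        · exact h
      obtain ⟨i, hi, h⟩ := ih hn0 hn.le
      exact ⟨i, by omega, h⟩

/-- radius profile -/
noncomputable def Rad (e c : ℝ) : ℝ := 1 / 2 + e ^ 2 * (c ^ 2 + c ^ 4 + 1 / 50)

lemma abs_mul_le' {a b A B : ℝ} (ha : |a| ≤ A) (hb : |b| ≤ B) : |a * b| ≤ A * B := by
  rw [abs_mul]; exact mul_le_mul ha hb (abs_nonneg _) (le_trans (abs_nonneg _) ha)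

lemma core_ineq {e c c' x y ζ θ θ' : ℝ} (he0 : 0 < e) (he : e ≤ 1 / 2000) (hc : |c| ≤ 1)
    (hc' : |c'| ≤ 1) (hx : |x| ≤ 1) (hy : |y| ≤ 1) (hθ : |θ| ≤ e ^ 2) (hθ' : |θ'| ≤ e ^ 2)
    (ey : y = c * ζ + e * x * (1 - c ^ 2) + θ) (ex : x = c' * (1 - ζ) - e * y * (1 - c' ^ 2) + θ')
    (h1 : Rad e c < ζ - 2 * e * c * x) (h2 : Rad e c' < 1 - ζ + 2 * e * c' * y) : False := by
  unfold Rad at h1 h2
  set s := ζ - 1 / 2 with hs
  have hc2 : |1 - c ^ 2| ≤ 1 := by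
    have := sq_abs c
    rw [abs_le]; constructor <;> nlinarith [abs_nonneg c, sq_nonneg c]
  have hc2' : |1 - c' ^ 2| ≤ 1 := by
    have := sq_abs c'
    rw [abs_le]; constructor <;> nlinarith [abs_nonneg c', sq_nonneg c']
  have r0 : 0 ≤ e ^ 2 * (c ^ 2 + c ^ 4 + 1 / 50) := by positivity
  have r0' : 0 ≤ e ^ 2 * (c' ^ 2 + c' ^ 4 + 1 / 50) := by positivity
  have s1 : 2 * e * (c * x) < s := by linarith
  have s2 : s < 2 * e * (c' * y) := by linarith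
  have b1 := abs_le.1 (abs_mul_le' hc hx)
  have b2 := abs_le.1 (abs_mul_le' hc' hy)
  have hsb : |s| ≤ 2 * e := by rw [abs_le]; constructor <;> nlinarith
  set ξ := x - c' / 2 with hξ
  set η := y - c / 2 with hη
  have eξ : ξ = -(c' * s) - e * (y * (1 - c' ^ 2)) + θ' := by rw [hξ, hs]; linarith
  have eη : η = c * s + e * (x * (1 - c ^ 2)) + θ := by rw [hη, hs]; linarith
  have b3 := abs_le.1 (abs_mul_le' hc' hsb)
  have b4 := abs_le.1 (abs_mul_le' hc hsb)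
  have b5 := abs_le.1 (abs_mul_le' hy hc2')
  have b6 := abs_le.1 (abs_mul_le' hx hc2)
  have b7 := abs_le.1 hθ
  have b8 := abs_le.1 hθ'
  have hξb : |ξ| ≤ 4 * e := by rw [abs_le, eξ]; constructor <;> nlinarith
  have hηb : |η| ≤ 4 * e := by rw [abs_le, eη]; constructor <;> nlinarith
  set ω := s - e * (c * c') with hω
  have b9 := abs_le.1 (abs_mul_le' hc hξb)
  have b10 := abs_le.1 (abs_mul_le' hc' hηb)
  have hωb : |ω| ≤ 8 * e ^ 2 := by
    have e1 : c * x = c * c' / 2 + c * ξ := by rw [hξ]; ring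
    have e2 : c' * y = c * c' / 2 + c' * η := by rw [hη]; ring
    rw [e1] at s1
    rw [e2] at s2
    rw [abs_le, hω]; constructor <;> nlinarith
  have b11 := abs_le.1 (abs_mul_le' (abs_mul_le' hc hc') hωb)
  have b12 := abs_le.1 (abs_mul_le' (abs_mul_le' hc' hξb) hc2)
  have b13 := abs_le.1 (abs_mul_le' (abs_mul_le' hc hηb) hc2')
  have b14 := abs_le.1 (abs_mul_le' hc' hθ)
  have b15 := abs_le.1 (abs_mul_le' hc hθ')
  have key : c' * y - c * x = e * (c ^ 2 * c' ^ 2 + (c ^ 2 + c' ^ 2) / 2) + 2 * (c * c' * ω) +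
      e * (c' * ξ * (1 - c ^ 2) + c * η * (1 - c' ^ 2)) + c' * θ - c * θ' := by
    rw [hω, hξ, hη, hs]
    linear_combination c' * ey - c * ex
  have low : e * (c ^ 2 + c ^ 4 + c' ^ 2 + c' ^ 4 + 1 / 25) < 2 * (c' * y - c * x) := by
    have : e * (e * (c ^ 2 + c ^ 4 + c' ^ 2 + c' ^ 4 + 1 / 25)) < e * (2 * (c' * y - c * x)) := by
      linarith
    exact lt_of_mul_lt_mul_left this he0.le
  have am : e * (2 * (c ^ 2 * c' ^ 2)) ≤ e * (c ^ 4 + c' ^ 4) :=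
    mul_le_mul_of_nonneg_left (by nlinarith [sq_nonneg (c ^ 2 - c' ^ 2)]) he0.le
  have b16 : e * (c' * ξ * (1 - c ^ 2) + c * η * (1 - c' ^ 2)) ≤ e * (8 * e) :=
    mul_le_mul_of_nonneg_left (by linarith [b12.2, b13.2]) he0.le
  rw [key] at low
  nlinarith

lemma sector {f e t δ x y ζ R : ℝ} (hf : |f| ≤ e) (hδ : 0 < δ) (hx : |x| ≤ 1)
    (hρ : 0 < R + e * δ / 2)
    (g1 : t * ζ + f * x * (1 - t ^ 2) - y ≤ 0)
    (g2 : 0 ≤ (t + δ) * ζ + f * x * (1 - (t + δ) ^ 2) - y)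
    (hR : ζ - 2 * f * (t + δ / 2) * x ≤ R) :
    ∃ α β : ℝ, 0 ≤ α ∧ 0 ≤ β ∧ α + β ≤ 1 ∧
      ζ = -(e * δ / 2) + (R + e * δ / 2) * (α + β) + x * (2 * f * (t + δ / 2)) ∧
      y = -(e * δ / 2) * (t + δ / 2) + (R + e * δ / 2) * (α * t + β * (t + δ)) +
        x * (f * (1 + (t + δ / 2) ^ 2)) := by
  set ρ := R + e * δ / 2 with hρd
  set W := ζ - 2 * f * (t + δ / 2) * x + e * δ / 2 with hW
  set Z := y - x * (f * (1 + (t + δ / 2) ^ 2)) + e * δ / 2 * (t + δ / 2) with hZ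
  have b := abs_le.1 (abs_mul_le' hf hx)
  have hd : 0 < δ ^ 2 / 4 := by positivity
  have k1 : 0 ≤ Z - t * W := by
    have : Z - t * W = -(t * ζ + f * x * (1 - t ^ 2) - y) + (e - f * x) * (δ ^ 2 / 4) := by
      rw [hZ, hW]; ring
    rw [this]; nlinarith
  have k2 : 0 ≤ (t + δ) * W - Z := by
    have : (t + δ) * W - Z = ((t + δ) * ζ + f * x * (1 - (t + δ) ^ 2) - y) +
        (e + f * x) * (δ ^ 2 / 4) := by
      rw [hZ, hW]; ring
    rw [this]; nlinarith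
  refine ⟨((t + δ) * W - Z) / (ρ * δ), (Z - t * W) / (ρ * δ), by positivity, by positivity, ?_, ?_,
    ?_⟩
  · rw [← add_div, div_le_one (by positivity)]
    have : W ≤ ρ := by rw [hW, hρd]; linarith
    nlinarith
  · have : ρ * (((t + δ) * W - Z) / (ρ * δ) + (Z - t * W) / (ρ * δ)) = W := by field_simp; ring
    rw [this, hW]; ring
  · have : ρ * (((t + δ) * W - Z) / (ρ * δ) * t + (Z - t * W) / (ρ * δ) * (t + δ)) = Z := by
      field_simp; ring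
    rw [this, hZ]; ring

lemma theta_bd {f e t δ x y ζ : ℝ} (hf : |f| ≤ e) (he : e ≤ 1 / 2000) (hδ : 0 < δ) (hx : |x| ≤ 1)
    (hζ0 : 0 ≤ ζ) (hζ : ζ ≤ 1) (ht : -1 ≤ t) (ht' : t + δ ≤ 1)
    (g1 : t * ζ + f * x * (1 - t ^ 2) - y ≤ 0)
    (g2 : 0 ≤ (t + δ) * ζ + f * x * (1 - (t + δ) ^ 2) - y) :
    |y - ((t + δ / 2) * ζ + f * x * (1 - (t + δ / 2) ^ 2))| ≤ δ := by
  have b := abs_mul_le' hf hx
  have b1 := abs_le.1 (abs_mul_le' b (show |2 * t + δ / 2| ≤ 2 by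
    rw [abs_le]; constructor <;> linarith))
  have b2 := abs_le.1 (abs_mul_le' b (show |2 * t + 3 * δ / 2| ≤ 2 by
    rw [abs_le]; constructor <;> linarith))
  rw [abs_le]
  constructor
  · have : y - ((t + δ / 2) * ζ + f * x * (1 - (t + δ / 2) ^ 2)) =
        -(t * ζ + f * x * (1 - t ^ 2) - y) - δ / 2 * (ζ - f * x * (2 * t + δ / 2)) := by ring
    rw [this]; nlinarith
  · have : y - ((t + δ / 2) * ζ + f * x * (1 - (t + δ / 2) ^ 2)) =
        -((t + δ) * ζ + f * x * (1 - (t + δ) ^ 2) - y) +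
          δ / 2 * (ζ - f * x * (2 * t + 3 * δ / 2)) := by ring
    rw [this]; nlinarith

/-- antiderivative of the second-order area density -/
noncomputable def Pr (t : ℝ) : ℝ := (1 / 100 - 1 / 16) * t - t ^ 3 / 24 + 7 * t ^ 5 / 80

lemma area_bd {e c δ n : ℝ} (he0 : 0 < e) (he : e ≤ 1 / 2000) (hc : |c| ≤ 1) (hδ : 0 < δ)
    (hδe : δ ≤ e ^ 2) (hn : 0 < n) (hn2 : n ^ 2 = 1 + e ^ 2 * (1 + 10 * c ^ 2 + c ^ 4)) :
    (Rad e c + e * δ / 2) ^ 2 * δ / n / 2 ≤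
      δ / 8 + e ^ 2 * (Pr (c + δ / 2) - Pr (c - δ / 2) + δ / 500) := by
  have hc2 : c ^ 2 ≤ 1 := by rw [← sq_abs]; nlinarith [abs_nonneg c]
  have hc4 : c ^ 4 ≤ 1 := by nlinarith [sq_nonneg c]
  have c2 := sq_nonneg c
  have c4 : 0 ≤ c ^ 4 := by positivity
  have e2 : e ^ 2 ≤ 1 / 4000000 := by nlinarith
  have e20 : 0 < e ^ 2 := by positivity
  set v := e ^ 2 * (1 + 10 * c ^ 2 + c ^ 4) with hv
  have v0 : 0 ≤ v := by positivity
  have v1 : v ≤ 12 * e ^ 2 := by rw [hv]; nlinarith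
  set s := e ^ 2 * (c ^ 2 + c ^ 4 + 1 / 50) + e * δ / 2 with hs
  have s0 : 0 ≤ s := by positivity
  have eδ : e * δ ≤ e ^ 2 / 2000 := by nlinarith
  have s1 : s ≤ 3 * e ^ 2 := by rw [hs]; nlinarith
  have hR : Rad e c + e * δ / 2 = 1 / 2 + s := by rw [Rad, hs]; ring
  have w0 : 0 < 1 - v / 2 + v ^ 2 / 2 := by nlinarith
  have inv : 1 / n ≤ 1 - v / 2 + v ^ 2 / 2 := by
    rw [div_le_iff₀ hn]
    apply le_of_sq_le_sq _ (by positivity) |>.trans le_rfl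
    rw [mul_pow, hn2]
    have v2 : 0 ≤ v ^ 2 := by positivity
    have v3 : 0 ≤ v ^ 3 := by positivity
    have v5 : 0 ≤ v ^ 5 := by positivity
    have : (1 - v / 2 + v ^ 2 / 2) ^ 2 * (1 + v) =
      1 + v ^ 2 / 4 + v ^ 3 * (3 / 4 - v / 4) + v ^ 5 / 4 := by ring
    rw [this]
    have : 0 ≤ v ^ 3 * (3 / 4 - v / 4) := mul_nonneg v3 (by nlinarith)
    linarith
  have step1 : (1 / 2 + s) ^ 2 / 2 * (1 / n) ≤
      1 / 8 + e ^ 2 * (1 / 100 - 1 / 16 - c ^ 2 / 8 + 7 * c ^ 4 / 16 + 1 / 1000) := by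
    calc (1 / 2 + s) ^ 2 / 2 * (1 / n) ≤ (1 / 2 + s) ^ 2 / 2 * (1 - v / 2 + v ^ 2 / 2) :=
          mul_le_mul_of_nonneg_left inv (by positivity)
      _ = 1 / 8 + s / 2 - v / 16 + s ^ 2 / 2 + v ^ 2 / 16 - (s / 2 + s ^ 2 / 2) * (v * (1 - v) / 2) := by
          ring
      _ ≤ 1 / 8 + s / 2 - v / 16 + s ^ 2 / 2 + v ^ 2 / 16 := by
          have : 0 ≤ (s / 2 + s ^ 2 / 2) * (v * (1 - v) / 2) :=
            mul_nonneg (by positivity) (div_nonneg (mul_nonneg v0 (by nlinarith)) (by norm_num))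
          linarith
      _ ≤ _ := by
          have h1 : s ^ 2 ≤ (3 * e ^ 2) ^ 2 := pow_le_pow_left₀ s0 s1 2
          have h2 : v ^ 2 ≤ (12 * e ^ 2) ^ 2 := pow_le_pow_left₀ v0 v1 2
          have h3 : (e ^ 2) ^ 2 ≤ e ^ 2 / 4000000 := by nlinarith
          rw [hs, hv] at *
          nlinarith
  have step2 : δ * (1 / 100 - 1 / 16 - c ^ 2 / 8 + 7 * c ^ 4 / 16 + 1 / 1000) ≤
      Pr (c + δ / 2) - Pr (c - δ / 2) + δ / 500 := by
    have : Pr (c + δ / 2) - Pr (c - δ / 2) = δ * (1 / 100 - 1 / 16 - c ^ 2 / 8 + 7 * c ^ 4 / 16) -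
        δ ^ 3 / 96 + 7 / 32 * c ^ 2 * δ ^ 3 + 7 / 1280 * δ ^ 5 := by unfold Pr; ring
    rw [this]
    have d3 : 0 ≤ c ^ 2 * δ ^ 3 := by positivity
    have d5 : 0 ≤ δ ^ 5 := by positivity
    have d1 : δ ^ 2 ≤ 1 / 1000 := by nlinarith
    have d2 : δ ^ 3 ≤ δ / 1000 := by nlinarith
    nlinarith
  rw [hR]
  calc (1 / 2 + s) ^ 2 * δ / n / 2 = δ * ((1 / 2 + s) ^ 2 / 2 * (1 / n)) := by ring
    _ ≤ δ * (1 / 8 + e ^ 2 * (1 / 100 - 1 / 16 - c ^ 2 / 8 + 7 * c ^ 4 / 16 + 1 / 1000)) :=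
        mul_le_mul_of_nonneg_left step1 hδ.le
    _ = δ / 8 + e ^ 2 * (δ * (1 / 100 - 1 / 16 - c ^ 2 / 8 + 7 * c ^ 4 / 16 + 1 / 1000)) := by ring
    _ ≤ _ := by
        have := mul_le_mul_of_nonneg_left step2 e20.le
        linarith

end Crest.Agent.R211
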