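import Mathlib
import Crest.Agent.R211.Tet

set_option autoImplicit false

namespace Crest.Agent.R211

open MeasureTheory Set
open scoped ENNReal

section
variable (e δ : ℝ)

/-- left end point of the `i`-th sector -/
noncomputable def tt (i : ℕ) : ℝ := -1 + i * δ
noncomputable def cc (i : ℕ) : ℝ := tt δ i + δ / 2
noncomputable def rho (i : ℕ) : ℝ := Rad e (cc δ i) + e * δ / 2

noncomputable def dL (i : ℕ) : E3 := !₂[1, e * (1 + cc δ i ^ 2), Real.sqrt 2 * (2 * e * cc δ i)]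
noncomputable def PL (i : ℕ) : E3 := !₂[0, -(e * δ / 2) * cc δ i, Real.sqrt 2 * -(e * δ / 2)]
noncomputable def QL (i : ℕ) : E3 := PL e δ i + rho e δ i • !₂[0, tt δ i, Real.sqrt 2]
noncomputable def RL (i : ℕ) : E3 := PL e δ i + rho e δ i • !₂[0, tt δ i + δ, Real.sqrt 2]

noncomputable def dU (i : ℕ) : E3 := !₂[-e * (1 + cc δ i ^ 2), 1, Real.sqrt 2 * (2 * e * cc δ i)]
noncomputable def PU (i : ℕ) : E3 := !₂[-(e * δ / 2) * cc δ i, 0, Real.sqrt 2 * (1 + e * δ / 2)]
noncomputable def QU (i : ℕ) : E3 := PU e δ i + rho e δ i • !₂[tt δ i, 0, -Real.sqrt 2]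
noncomputable def RU (i : ℕ) : E3 := PU e δ i + rho e δ i • !₂[tt δ i + δ, 0, -Real.sqrt 2]

lemma dL_ne (i : ℕ) : dL e δ i ≠ 0 := by
  intro h; have := congrArg (fun z : E3 => z 0) h; simp [dL] at this
lemma dU_ne (i : ℕ) : dU e δ i ≠ 0 := by
  intro h; have := congrArg (fun z : E3 => z 1) h; simp [dU] at this

lemma dL_norm (i : ℕ) : ‖dL e δ i‖ ^ 2 = 1 + e ^ 2 * (1 + 10 * cc δ i ^ 2 + cc δ i ^ 4) := by
  have h2 : Real.sqrt 2 ^ 2 = 2 := Real.sq_sqrt (by norm_num)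
  rw [normsq3]; simp [dL]
  linear_combination (4 * e ^ 2 * cc δ i ^ 2) * h2
lemma dU_norm (i : ℕ) : ‖dU e δ i‖ ^ 2 = 1 + e ^ 2 * (1 + 10 * cc δ i ^ 2 + cc δ i ^ 4) := by
  have h2 : Real.sqrt 2 ^ 2 = 2 := Real.sq_sqrt (by norm_num)
  rw [normsq3]; simp [dU]
  linear_combination (4 * e ^ 2 * cc δ i ^ 2) * h2

lemma gramL (hδ : 0 < δ) (i : ℕ) :
    gram (prj (unit (dL e δ i)) (QL e δ i) - prj (unit (dL e δ i)) (PL e δ i))
      (prj (unit (dL e δ i)) (RL e δ i) - prj (unit (dL e δ i)) (PL e δ i)) =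
      Real.sqrt 2 * (rho e δ i ^ 2 * δ / ‖dL e δ i‖) := by
  rw [← map_sub, ← map_sub, gram_prj (norm_unit (dL_ne e δ i)), det3_unit]
  have : det3 (QL e δ i - PL e δ i) (RL e δ i - PL e δ i) (dL e δ i) =
      -(Real.sqrt 2 * (rho e δ i ^ 2 * δ)) := by
    simp [QL, RL, det3, dL]; ring
  rw [this, neg_div, abs_neg, abs_of_nonneg (by positivity)]; ring

lemma gramU (hδ : 0 < δ) (i : ℕ) :
    gram (prj (unit (dU e δ i)) (QU e δ i) - prj (unit (dU e δ i)) (PU e δ i))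
      (prj (unit (dU e δ i)) (RU e δ i) - prj (unit (dU e δ i)) (PU e δ i)) =
      Real.sqrt 2 * (rho e δ i ^ 2 * δ / ‖dU e δ i‖) := by
  rw [← map_sub, ← map_sub, gram_prj (norm_unit (dU_ne e δ i)), det3_unit]
  have : det3 (QU e δ i - PU e δ i) (RU e δ i - PU e δ i) (dU e δ i) =
      -(Real.sqrt 2 * (rho e δ i ^ 2 * δ)) := by
    simp [QU, RU, det3, dU]; ring
  rw [this, neg_div, abs_neg, abs_of_nonneg (by positivity)]; ring

end

theorem cover_std (N : ℕ) (hN : 8000000 ≤ N) :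
    ∃ u p q r : Fin N ⊕ Fin N → E3, TriCover K0 u p q r ∧
      (∀ i, 0 < gram (q i - p i) (r i - p i)) ∧
      ∑ i, gram (q i - p i) (r i - p i) / 2 ≤
        Real.sqrt 2 * (1 / 2 - 13 / 6000 * (1 / 2000) ^ 2) := by
  obtain ⟨e, he⟩ : ∃ e : ℝ, e = 1 / 2000 := ⟨_, rfl⟩
  have he0 : 0 < e := by rw [he]; norm_num
  have hN' : (8000000 : ℝ) ≤ N := by exact_mod_cast hN
  have hN0 : (0 : ℝ) < N := by linarith
  set δ : ℝ := 2 / N with hδd
  have hδ : 0 < δ := by positivity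
  have hNδ : N * δ = 2 := by rw [hδd]; field_simp
  have hδe : δ ≤ e ^ 2 := by
    rw [hδd, he, div_le_iff₀ hN0]; linarith
  have tsucc : ∀ i, tt δ (i + 1) = tt δ i + δ := by intro i; simp [tt]; ring
  have t0 : tt δ 0 = -1 := by simp [tt]
  have tN : tt δ N = 1 := by simp [tt]; linarith
  have tlo : ∀ i, -1 ≤ tt δ i := by
    intro i; have : (0 : ℝ) ≤ i * δ := by positivity
    simp only [tt]; linarith
  have thi : ∀ i < N, tt δ i + δ ≤ 1 := by
    intro i hi
    have : (i : ℝ) + 1 ≤ N := by exact_mod_cast hi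
    simp only [tt]; nlinarith
  have cb : ∀ i < N, |cc δ i| ≤ 1 := by
    intro i hi
    have := tlo i; have := thi i hi
    rw [abs_le, cc]; constructor <;> linarith
  have rpos : ∀ i, 0 < rho e δ i := by
    intro i; unfold rho Rad; positivity
  have h2 : 0 < Real.sqrt 2 := by positivity
  let d : Fin N ⊕ Fin N → E3 := Sum.elim (fun i => dL e δ i) (fun i => dU e δ i)
  let P : Fin N ⊕ Fin N → E3 := Sum.elim (fun i => PL e δ i) (fun i => PU e δ i)
  let Q : Fin N ⊕ Fin N → E3 := Sum.elim (fun i => QL e δ i) (fun i => QU e δ i)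
  let R : Fin N ⊕ Fin N → E3 := Sum.elim (fun i => RL e δ i) (fun i => RU e δ i)
  have hd : ∀ i, d i ≠ 0 := by
    rintro (i | i)
    · exact dL_ne e δ i
    · exact dU_ne e δ i
  refine ⟨fun i => unit (d i), fun i => prj (unit (d i)) (P i), fun i => prj (unit (d i)) (Q i),
    fun i => prj (unit (d i)) (R i), ⟨fun i => norm_unit (hd i), fun i =>
      ⟨prj_inner (norm_unit (hd i)) _, prj_inner (norm_unit (hd i)) _,
        prj_inner (norm_unit (hd i)) _⟩, ?_⟩, ?_, ?_⟩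
  · intro z hz
    obtain ⟨ζ, z2, zx, zy⟩ := mem_K0 hz
    set x := z 0 with hx
    set y := z 1 with hy
    have ζ0 : 0 ≤ ζ := le_trans (abs_nonneg _) zy
    have ζ1 : ζ ≤ 1 := by linarith [abs_nonneg x]
    have x1 : |x| ≤ 1 := by linarith
    have y1 : |y| ≤ 1 := by linarith
    have zx' := abs_le.1 zx
    have zy' := abs_le.1 zy
    obtain ⟨i, hi, g1, g2⟩ := discrete_ivt (fun i => tt δ i * ζ + e * x * (1 - tt δ i ^ 2) - y) N
      (by omega) (by simp only [t0]; linarith) (by simp only [tN]; linarith)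
    obtain ⟨j, hj, g3, g4⟩ := discrete_ivt
      (fun i => tt δ i * (1 - ζ) + -e * y * (1 - tt δ i ^ 2) - x) N
      (by omega) (by simp only [t0]; linarith) (by simp only [tN]; linarith)
    simp only [tsucc] at g1 g2 g3 g4
    have ab1 : |e| ≤ e := by rw [abs_of_pos he0]
    have ab2 : |-e| ≤ e := by rw [abs_neg, abs_of_pos he0]
    by_cases c1 : ζ - 2 * e * cc δ i * x ≤ Rad e (cc δ i)
    · obtain ⟨α, β, hα, hβ, hαβ, k1, k2⟩ := sector ab1 hδ x1 (rpos i) g1 g2 c1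
      refine mem_iUnion.2 ⟨Sum.inl ⟨i, hi⟩, oblique_mem (dL_ne e δ i) hα hβ hαβ (τ := x) ?_⟩
      ext k; fin_cases k
      · simp [P, Q, R, PL, QL, RL, dL, hx]
      · simp [P, Q, R, PL, QL, RL, dL, rho, cc]
        rw [← hy]; simp only [cc] at k2; linear_combination k2
      · simp [P, Q, R, PL, QL, RL, dL, rho, cc]
        rw [z2]; simp only [cc] at k1; linear_combination (Real.sqrt 2) * k1
    by_cases c2 : (1 - ζ) - 2 * -e * cc δ j * y ≤ Rad e (cc δ j)
    · obtain ⟨α, β, hα, hβ, hαβ, k1, k2⟩ := sector ab2 hδ y1 (rpos j) g3 g4 c2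
      refine mem_iUnion.2 ⟨Sum.inr ⟨j, hj⟩, oblique_mem (dU_ne e δ j) hα hβ hαβ (τ := y) ?_⟩
      ext k; fin_cases k
      · simp [P, Q, R, PU, QU, RU, dU, rho, cc]
        rw [← hx]; simp only [cc] at k2; linear_combination k2
      · simp [P, Q, R, PU, QU, RU, dU, hy]
      · simp [P, Q, R, PU, QU, RU, dU, rho, cc]
        rw [z2]; simp only [cc] at k1; linear_combination (-Real.sqrt 2) * k1
    exfalso
    push Not at c1 c2
    have θ1 := theta_bd ab1 he.le hδ x1 ζ0 ζ1 (tlo i) (thi i hi) g1 g2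
    have θ2 := theta_bd ab2 he.le hδ y1 (by linarith) (by linarith) (tlo j) (thi j hj) g3 g4
    exact core_ineq (ζ := ζ) he0 he.le (cb i hi) (cb j hj) x1 y1 (θ1.trans hδe) (θ2.trans hδe)
      (by simp only [cc]; ring) (by simp only [cc]; ring) c1 (by linarith)
  · rintro (i | i)
    · have := gramL e δ hδ i
      simp only [d, P, Q, R, Sum.elim_inl]
      rw [this]
      have := rpos i
      have := norm_pos_iff.2 (dL_ne e δ i)
      positivity
    · have := gramU e δ hδ i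
      simp only [d, P, Q, R, Sum.elim_inr]
      rw [this]
      have := rpos i
      have := norm_pos_iff.2 (dU_ne e δ i)
      positivity
  · rw [Fintype.sum_sum_type]
    simp only [d, P, Q, R, Sum.elim_inl, Sum.elim_inr, gramL e δ hδ, gramU e δ hδ]
    have main : ∀ (n : ℕ → ℝ), (∀ i, 0 < n i) →
        (∀ i, n i ^ 2 = 1 + e ^ 2 * (1 + 10 * cc δ i ^ 2 + cc δ i ^ 4)) →
        ∑ i : Fin N, Real.sqrt 2 * (rho e δ i ^ 2 * δ / n i) / 2 ≤
          Real.sqrt 2 * (1 / 4 + e ^ 2 * (1 / 50 - 1 / 30 + 1 / 250)) := by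
      intro n hn hn2
      have s1 : ∑ i : Fin N, Real.sqrt 2 * (rho e δ i ^ 2 * δ / n i) / 2 ≤
          ∑ i : Fin N, Real.sqrt 2 * (δ / 8 + e ^ 2 * (Pr (tt δ (i + 1)) - Pr (tt δ i) + δ / 500)) := by
        apply Finset.sum_le_sum
        intro i _
        have := area_bd he0 he.le (cb i i.2) hδ hδe (hn i) (hn2 i)
        have e1 : cc δ i + δ / 2 = tt δ (i + 1) := by rw [tsucc, cc]; ring
        have e2 : cc δ i - δ / 2 = tt δ i := by rw [cc]; ring
        rw [e1, e2] at this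
        rw [mul_div_assoc]
        exact mul_le_mul_of_nonneg_left this h2.le
      refine s1.trans (le_of_eq ?_)
      rw [Fin.sum_univ_eq_sum_range (fun i => Real.sqrt 2 * (δ / 8 + e ^ 2 *
        (Pr (tt δ (i + 1)) - Pr (tt δ i) + δ / 500))), ← Finset.mul_sum, Finset.sum_add_distrib,
        ← Finset.mul_sum, Finset.sum_add_distrib, Finset.sum_range_sub (fun i => Pr (tt δ i)), t0, tN]
      simp only [Finset.sum_const, Finset.card_range, nsmul_eq_mul, Pr]
      congr 1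
      linear_combination (1 / 8 + e ^ 2 / 500) * hNδ
    have m1 := main (fun i => ‖dL e δ i‖) (fun i => norm_pos_iff.2 (dL_ne e δ i)) (dL_norm e δ)
    have m2 := main (fun i => ‖dU e δ i‖) (fun i => norm_pos_iff.2 (dU_ne e δ i)) (dU_norm e δ)
    rw [he] at m1 m2 ⊢
    nlinarith

/-- covers with any prescribed area above the threshold -/
theorem cover_exact (N : ℕ) (hN : 8000000 ≤ N) {A : ℝ}
    (hA : Real.sqrt 2 * (1 / 2 - 13 / 6000 * (1 / 2000) ^ 2) ≤ A) :
    ∃ u p q r : Fin (2 * N) → E3, TriCover K0 u p q r ∧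
      ∑ i, gram (q i - p i) (r i - p i) / 2 = A := by
  obtain ⟨u, p, q, r, h1, h2, h3⟩ := cover_std N hN
  obtain ⟨q', r', h4, h5⟩ := h1.pad (Sum.inl ⟨0, by omega⟩) (h2 _) (h3.trans hA)
  let e : Fin (2 * N) ≃ Fin N ⊕ Fin N := (finCongr (two_mul N)).trans finSumFinEquiv.symm
  refine ⟨_, _, _, _, h4.reindex e, ?_⟩
  rw [← h5]
  exact Equiv.sum_comp e (fun i => gram (q' i - p i) (r' i - p i) / 2)

end Crest.Agent.R211
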