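import Mathlib
import Crest.Agent.R211.Area

set_option autoImplicit false

namespace Crest.Agent.R211

open MeasureTheory Set
open scoped ENNReal

/-- unit squares at the points of the lattice with basis `(1,-t)`, `(-u,1)` cover the plane -/
lemma lattice_cover_neg {t u : ℝ} (ht : 0 ≤ t) (hu : 0 ≤ u) (htu : t * u < 1) (z1 z2 : ℝ) :
    ∃ n1 n2 : ℤ, (0 ≤ z1 - (n1 - u * n2) ∧ z1 - (n1 - u * n2) ≤ 1) ∧
      (0 ≤ z2 - (n2 - t * n1) ∧ z2 - (n2 - t * n1) ≤ 1) := by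
  have hk : 0 < 1 - t * u := by linarith
  let P : ℤ → Prop := fun m => ∃ n1 n2 : ℤ, n1 - u * n2 ≤ z1 ∧ n2 - t * n1 ≤ z2 ∧ n1 + n2 = m
  have hb : ∃ b : ℤ, ∀ m, P m → m ≤ b := by
    refine ⟨⌈(z1 + u * z2) / (1 - t * u) + (z2 + t * z1) / (1 - t * u)⌉, ?_⟩
    rintro m ⟨n1, n2, h1, h2, rfl⟩
    have a1 : (n1 : ℝ) ≤ (z1 + u * z2) / (1 - t * u) := by
      rw [le_div_iff₀ hk]; nlinarith [mul_le_mul_of_nonneg_left h2 hu]
    have a2 : (n2 : ℝ) ≤ (z2 + t * z1) / (1 - t * u) := by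
      rw [le_div_iff₀ hk]; nlinarith [mul_le_mul_of_nonneg_left h1 ht]
    have : ((n1 + n2 : ℤ) : ℝ) ≤ (z1 + u * z2) / (1 - t * u) + (z2 + t * z1) / (1 - t * u) := by
      push_cast; linarith
    exact_mod_cast this.trans (Int.le_ceil _)
  have hi : ∃ m, P m := by
    set K := t + u
    set w1 := ((z1 - K) + u * (z2 - K)) / (1 - t * u) with hw1
    set w2 := ((z2 - K) + t * (z1 - K)) / (1 - t * u) with hw2
    have e1 : w1 - u * w2 = z1 - K := by
      rw [hw1, hw2, ← mul_div_assoc, ← sub_div, div_eq_iff hk.ne']; ring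
    have e2 : w2 - t * w1 = z2 - K := by
      rw [hw1, hw2, ← mul_div_assoc, ← sub_div, div_eq_iff hk.ne']; ring
    have f1 := Int.floor_le w1
    have f2 := Int.floor_le w2
    have g1 := (Int.lt_floor_add_one w1).le
    have g2 := (Int.lt_floor_add_one w2).le
    refine ⟨_, ⌊w1⌋, ⌊w2⌋, ?_, ?_, rfl⟩
    · nlinarith [mul_le_mul_of_nonneg_left g2 hu]
    · nlinarith [mul_le_mul_of_nonneg_left g1 ht]
  obtain ⟨m, ⟨n1, n2, h1, h2, rfl⟩, hmax⟩ := Int.exists_greatest_of_bdd hb hi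
  refine ⟨n1, n2, ⟨by linarith, ?_⟩, ⟨by linarith, ?_⟩⟩
  · by_contra hc
    push Not at hc
    have := hmax (n1 + 1 + n2) ⟨n1 + 1, n2, by push_cast; linarith, by push_cast; nlinarith, rfl⟩
    omega
  · by_contra hc
    push Not at hc
    have := hmax (n1 + (n2 + 1)) ⟨n1, n2 + 1, by push_cast; nlinarith, by push_cast; linarith, rfl⟩
    omega

lemma lattice_cover {t u : ℝ} (h0 : 0 ≤ t * u) (htu : t * u < 1) (z1 z2 : ℝ) :
    ∃ n1 n2 : ℤ, (0 ≤ z1 - (n1 + u * n2) ∧ z1 - (n1 + u * n2) ≤ 1) ∧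
      (0 ≤ z2 - (n2 + t * n1) ∧ z2 - (n2 + t * n1) ≤ 1) := by
  have hs : (t ≤ 0 ∧ u ≤ 0) ∨ (0 ≤ t ∧ 0 ≤ u) := by
    rcases mul_nonneg_iff.1 h0 with h | h
    · exact Or.inr h
    · exact Or.inl h
  rcases hs with ⟨ht, hu⟩ | ⟨ht, hu⟩
  · obtain ⟨n1, n2, h1, h2⟩ := lattice_cover_neg (t := -t) (u := -u) (by linarith) (by linarith)
      (by linarith) z1 z2
    exact ⟨n1, n2, ⟨by linarith [h1.1], by linarith [h1.2]⟩, ⟨by linarith [h2.1], by linarith [h2.2]⟩⟩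
  · obtain ⟨n1, n2, h1, h2⟩ := lattice_cover_neg ht hu htu z1 (1 - z2)
    refine ⟨n1, -n2, ?_, ?_⟩ <;> push_cast
    · exact ⟨by linarith [h1.1], by linarith [h1.2]⟩
    · exact ⟨by linarith [h2.2], by linarith [h2.1]⟩

lemma inner2 (a b : E2) : inner ℝ a b = a 0 * b 0 + a 1 * b 1 := by
  simp [PiLp.inner_apply, Fin.sum_univ_two]; ring

lemma normsq2 (a : E2) : ‖a‖ ^ 2 = a 0 ^ 2 + a 1 ^ 2 := by
  rw [← real_inner_self_eq_norm_sq, inner2]; ring

/-- an orthonormal frame in which a trace-free map has zero diagonal -/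
lemma exists_frame (A : E2 →L[ℝ] E2) (htr : LinearMap.trace ℝ _ A.toLinearMap = 0) :
    ∃ (f1 f2 : E2) (β γ : ℝ), ‖f1‖ = 1 ∧ ‖f2‖ = 1 ∧ inner ℝ f1 f2 = 0 ∧
      (∀ y : E2, y = inner ℝ y f1 • f1 + inner ℝ y f2 • f2) ∧
      A f1 = γ • f2 ∧ A f2 = β • f1 ∧ LinearMap.det A.toLinearMap = -(β * γ) := by
  let B := (EuclideanSpace.basisFun (Fin 2) ℝ).toBasis
  set M := LinearMap.toMatrix B B A.toLinearMap with hM
  have hA : ∀ y : E2, A y = !₂[M 0 0 * y 0 + M 0 1 * y 1, M 1 0 * y 0 + M 1 1 * y 1] := by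
    intro y
    have hy : y = y 0 • B 0 + y 1 • B 1 := by
      ext i; fin_cases i <;> simp [B]
    conv_lhs => rw [hy]
    rw [map_add, map_smul, map_smul]
    ext i; fin_cases i <;> simp [hM, LinearMap.toMatrix_apply, B] <;> ring
  rw [LinearMap.trace_eq_matrix_trace ℝ B, ← hM, Matrix.trace_fin_two] at htr
  rw [← LinearMap.det_toMatrix B, ← hM, Matrix.det_fin_two]
  set p := M 0 0
  set b := M 0 1
  set c := M 1 0
  have h11 : M 1 1 = -p := by linarith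
  rw [h11] at hA ⊢
  obtain ⟨φ, hφ⟩ : ∃ φ : ℝ, p * (Real.cos φ ^ 2 - Real.sin φ ^ 2) +
      (b + c) * (Real.sin φ * Real.cos φ) = 0 := by
    have hc : Continuous fun φ : ℝ => p * (Real.cos φ ^ 2 - Real.sin φ ^ 2) +
      (b + c) * (Real.sin φ * Real.cos φ) := by fun_prop
    have := intermediate_value_univ₂ (a := if 0 ≤ p then Real.pi / 2 else 0)
      (b := if 0 ≤ p then 0 else Real.pi / 2) hc (continuous_const (y := (0 : ℝ)))
      (by split_ifs with h <;> simp <;> linarith) (by split_ifs with h <;> simp <;> linarith)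
    exact this
  have hcs := Real.cos_sq_add_sin_sq φ
  set C := Real.cos φ
  set S := Real.sin φ
  refine ⟨!₂[C, S], !₂[-S, C], b * C ^ 2 - c * S ^ 2 - 2 * p * S * C,
    c * C ^ 2 - b * S ^ 2 - 2 * p * S * C, ?_, ?_, ?_, ?_, ?_, ?_, ?_⟩
  · apply (pow_eq_one_iff_of_nonneg (norm_nonneg _) two_ne_zero).1
    rw [normsq2]; simpa using hcs
  · apply (pow_eq_one_iff_of_nonneg (norm_nonneg _) two_ne_zero).1
    rw [normsq2]; simp; linarith
  · rw [inner2]; simp; ring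
  · intro y
    ext i; fin_cases i
    · simp [inner2]; linear_combination (-y 0) * hcs
    · simp [inner2]; linear_combination (-y 1) * hcs
  · rw [hA]; ext i; fin_cases i
    · simp; linear_combination C * hφ - (p * C + b * S) * hcs
    · simp; linear_combination S * hφ - (c * C - p * S) * hcs
  · rw [hA]; ext i; fin_cases i
    · simp; linear_combination S * hφ - (-p * S + b * C) * hcs
    · simp; linear_combination (-C) * hφ + (c * S + p * C) * hcs
  · linear_combination (-(p * (C ^ 2 - S ^ 2) + (b + c) * (S * C))) * hφ +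
      ((p ^ 2 + b * c) * (1 + C ^ 2 + S ^ 2)) * hcs

/-- weight of a direction -/
noncomputable def J (h : ℝ) (g : E2) : ℝ := 1 / Real.sqrt (1 + (g 0) ^ 2 + h ^ 2 * (g 1) ^ 2)

lemma J_pos (h : ℝ) (g : E2) : 0 < J h g := by unfold J; positivity

lemma J_le_one (h : ℝ) (g : E2) : J h g ≤ 1 := by
  unfold J
  rw [div_le_one (by positivity)]
  apply Real.le_sqrt_of_sq_le
  nlinarith [sq_nonneg (g 0), mul_nonneg (sq_nonneg h) (sq_nonneg (g 1))]

lemma J_continuous (h : ℝ) : Continuous (J h) := by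
  unfold J
  apply Continuous.div continuous_const (by fun_prop)
  intro g; positivity

/-- a finite family of sheared square cylinders covering `W` with total weight at most `w` -/
def SqCover (h : ℝ) (W : Set (ℝ × E2)) (w : ℝ) : Prop :=
  ∃ (ι : Type) (_ : Fintype ι) (c a b g : ι → E2),
    (∀ i, a i ≠ 0 ∧ ‖b i‖ = ‖a i‖ ∧ inner ℝ (a i) (b i) = 0) ∧
    W ⊆ ⋃ i, {z : ℝ × E2 | ∃ x ∈ Set.Icc (0 : ℝ) 1, ∃ y ∈ Set.Icc (0 : ℝ) 1,
      z.2 = c i + x • a i + y • b i + z.1 • g i} ∧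
    ∑ i, ‖a i‖ ^ 2 * J h (g i) ≤ w

lemma SqCover.mono {h : ℝ} {W W' : Set (ℝ × E2)} {w w' : ℝ} (H : SqCover h W w) (hW : W' ⊆ W)
    (hw : w ≤ w') : SqCover h W' w' := by
  obtain ⟨ι, _, c, a, b, g, h1, h2, h3⟩ := H
  exact ⟨ι, _, c, a, b, g, h1, hW.trans h2, h3.trans hw⟩

lemma SqCover.empty (h : ℝ) : SqCover h ∅ 0 :=
  ⟨Empty, inferInstance, fun _ => 0, fun _ => 0, fun _ => 0, fun _ => 0, fun i => i.elim,
    empty_subset _, by simp⟩

lemma SqCover.union {h : ℝ} {W W' : Set (ℝ × E2)} {w w' : ℝ} (H : SqCover h W w)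
    (H' : SqCover h W' w') : SqCover h (W ∪ W') (w + w') := by
  obtain ⟨ι, _, c, a, b, g, h1, h2, h3⟩ := H
  obtain ⟨ι', _, c', a', b', g', h1', h2', h3'⟩ := H'
  refine ⟨ι ⊕ ι', inferInstance, Sum.elim c c', Sum.elim a a', Sum.elim b b', Sum.elim g g', ?_, ?_,
    ?_⟩
  · rintro (i | i)
    · exact h1 i
    · exact h1' i
  · rintro z (hz | hz)
    · obtain ⟨i, hi⟩ := mem_iUnion.1 (h2 hz)
      exact mem_iUnion.2 ⟨Sum.inl i, hi⟩
    · obtain ⟨i, hi⟩ := mem_iUnion.1 (h2' hz)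
      exact mem_iUnion.2 ⟨Sum.inr i, hi⟩
  · rw [Fintype.sum_sum_type]
    exact add_le_add h3 h3'

lemma SqCover.biUnion {h : ℝ} {α : Type} (t : Finset α) (W : α → Set (ℝ × E2)) (w : α → ℝ)
    (H : ∀ x ∈ t, SqCover h (W x) (w x)) : SqCover h (⋃ x ∈ t, W x) (∑ x ∈ t, w x) := by
  classical
  induction t using Finset.induction_on with
  | empty => simpa using SqCover.empty h
  | insert x s hx ih =>
    rw [Finset.sum_insert hx, Finset.set_biUnion_insert]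
    exact (H x (by simp)).union (ih fun y hy => H y (by simp [hy]))

lemma volume_grid (F : Finset (ℤ × ℤ)) :
    volume (⋃ n ∈ F, Ico (n.1 : ℝ) (n.1 + 1) ×ˢ Ico (n.2 : ℝ) (n.2 + 1)) = F.card := by
  rw [measure_biUnion_finset]
  · simp [Measure.volume_eq_prod, Measure.prod_prod]
  · intro m _ n _ hmn
    rw [Function.onFun, Set.disjoint_left]
    rintro ⟨x, y⟩ ⟨h1, h2⟩ ⟨h3, h4⟩
    apply hmn
    have a1 : ⌊x⌋ = m.1 := Int.floor_eq_iff.2 h1
    have a2 : ⌊x⌋ = n.1 := Int.floor_eq_iff.2 h3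
    have a3 : ⌊y⌋ = m.2 := Int.floor_eq_iff.2 h2
    have a4 : ⌊y⌋ = n.2 := Int.floor_eq_iff.2 h4
    exact Prod.ext (a1.symm.trans a2) (a3.symm.trans a4)
  · intro n _
    exact measurableSet_Ico.prod measurableSet_Ico

lemma card_grid_le {f1 f2 : E2} (h1 : ‖f1‖ = 1) (h2 : ‖f2‖ = 1) (h12 : inner ℝ f1 f2 = 0)
    {ρ R : ℝ} (hρ : 0 < ρ) (hR : 0 ≤ R) (F : Finset (ℤ × ℤ))
    (hF : ∀ n ∈ F, ‖(n.1 * ρ) • f1 + (n.2 * ρ) • f2‖ ≤ R) :
    ρ ^ 2 * F.card ≤ Real.pi * (R + 2 * ρ) ^ 2 := by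
  have hm := measure_plane (0 : E2) (ρ • f1) (ρ • f2)
    (⋃ n ∈ F, Ico (n.1 : ℝ) (n.1 + 1) ×ˢ Ico (n.2 : ℝ) (n.2 + 1))
  have hg : gram f1 f2 = 1 := gram_eq_of_sq zero_le_one (by rw [h1, h2, h12]; norm_num)
  rw [volume_grid, gram_smul, hg, EuclideanSpace.euclideanHausdorffMeasure_eq_volume] at hm
  have hsub : plane (0 : E2) (ρ • f1) (ρ • f2)
      (⋃ n ∈ F, Ico (n.1 : ℝ) (n.1 + 1) ×ˢ Ico (n.2 : ℝ) (n.2 + 1)) ⊆
      Metric.closedBall 0 (R + 2 * ρ) := by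
    rintro _ ⟨⟨x, y⟩, hxy, rfl⟩
    simp only [mem_iUnion] at hxy
    obtain ⟨n, hn, hx, hy⟩ := hxy
    rw [mem_closedBall_zero_iff]
    have e : (0 : E2) + x • ρ • f1 + y • ρ • f2 = ((n.1 * ρ) • f1 + (n.2 * ρ) • f2) +
        ((x - n.1) * ρ) • f1 + ((y - n.2) * ρ) • f2 := by module
    simp only
    rw [e]
    have b1 : ‖((x - n.1) * ρ) • f1‖ ≤ ρ := by
      rw [norm_smul, h1, mul_one, Real.norm_eq_abs, abs_of_nonneg (by nlinarith [hx.1])]
      nlinarith [hx.2]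
    have b2 : ‖((y - n.2) * ρ) • f2‖ ≤ ρ := by
      rw [norm_smul, h2, mul_one, Real.norm_eq_abs, abs_of_nonneg (by nlinarith [hy.1])]
      nlinarith [hy.2]
    have := norm_add₃_le (a := (n.1 * ρ) • f1 + (n.2 * ρ) • f2) (b := ((x - n.1) * ρ) • f1)
      (c := ((y - n.2) * ρ) • f2)
    linarith [hF n hn]
  have hle := measure_mono (μ := volume) hsub
  rw [hm, EuclideanSpace.volume_closedBall_fin_two, ← ENNReal.ofReal_pow (by positivity),
    ← ENNReal.ofReal_mul (by positivity), ← ENNReal.ofReal_natCast,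
    ← ENNReal.ofReal_mul (by positivity), ENNReal.ofReal_le_ofReal_iff (by positivity),
    abs_mul_self] at hle
  nlinarith

/-- a priori bound for `1 + sA` -/
lemma apriori {A : E2 →L[ℝ] E2} {f1 f2 : E2} {β γ L : ℝ} (h1 : ‖f1‖ = 1) (h2 : ‖f2‖ = 1)
    (h12 : inner ℝ f1 f2 = 0) (hexp : ∀ y : E2, y = inner ℝ y f1 • f1 + inner ℝ y f2 • f2)
    (a1 : A f1 = γ • f2) (a2 : A f2 = β • f1) (hL : 0 < L) (hβγ0 : 0 ≤ β * γ)
    (hβγ : L ^ 2 * (β * γ) < 1) :
    ∃ C : ℝ, 0 < C ∧ ∀ s : ℝ, |s| ≤ L → ∀ d : E2, ‖d‖ ≤ C * ‖d + s • A d‖ := by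
  have hκ : 0 < 1 - L ^ 2 * (β * γ) := by linarith
  refine ⟨(2 + L * |β| + L * |γ|) / (1 - L ^ 2 * (β * γ)), by positivity, fun s hs d => ?_⟩
  set d1 := inner ℝ d f1
  set d2 := inner ℝ d f2
  have hd : d = d1 • f1 + d2 • f2 := hexp d
  set e := d + s • A d with he
  have he' : e = (d1 + s * β * d2) • f1 + (d2 + s * γ * d1) • f2 := by
    rw [he]
    conv_lhs => rw [hd]
    rw [map_add, map_smul, map_smul, a1, a2]
    module
  have n1 : inner ℝ f1 f1 = (1 : ℝ) := by rw [real_inner_self_eq_norm_sq, h1]; norm_num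
  have n2 : inner ℝ f2 f2 = (1 : ℝ) := by rw [real_inner_self_eq_norm_sq, h2]; norm_num
  have h21 : inner ℝ f2 f1 = (0 : ℝ) := by rw [real_inner_comm, h12]
  have e1 : |d1 + s * β * d2| ≤ ‖e‖ := by
    have := abs_real_inner_le_norm e f1
    rw [h1, mul_one] at this
    convert this using 2
    rw [he', inner_add_left, real_inner_smul_left, real_inner_smul_left, n1, h21]; ring
  have e2 : |d2 + s * γ * d1| ≤ ‖e‖ := by
    have := abs_real_inner_le_norm e f2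
    rw [h2, mul_one] at this
    convert this using 2
    rw [he', inner_add_left, real_inner_smul_left, real_inner_smul_left, n2, h12]; ring
  have s2 : s ^ 2 ≤ L ^ 2 := by rw [← sq_abs s]; exact pow_le_pow_left₀ (abs_nonneg _) hs 2
  have hk : 1 - L ^ 2 * (β * γ) ≤ 1 - s ^ 2 * (β * γ) := by nlinarith
  have b1 : (1 - L ^ 2 * (β * γ)) * |d1| ≤ (1 + L * |β|) * ‖e‖ := by
    have : (1 - s ^ 2 * (β * γ)) * d1 = (d1 + s * β * d2) - s * β * (d2 + s * γ * d1) := by ring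
    have h3 : |(1 - s ^ 2 * (β * γ)) * d1| ≤ ‖e‖ + L * |β| * ‖e‖ := by
      rw [this]
      refine (abs_sub _ _).trans (add_le_add e1 ?_)
      rw [abs_mul, abs_mul]
      gcongr
    rw [abs_mul, abs_of_pos (by linarith)] at h3
    nlinarith [abs_nonneg d1]
  have b2 : (1 - L ^ 2 * (β * γ)) * |d2| ≤ (1 + L * |γ|) * ‖e‖ := by
    have : (1 - s ^ 2 * (β * γ)) * d2 = (d2 + s * γ * d1) - s * γ * (d1 + s * β * d2) := by ring
    have h3 : |(1 - s ^ 2 * (β * γ)) * d2| ≤ ‖e‖ + L * |γ| * ‖e‖ := by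
      rw [this]
      refine (abs_sub _ _).trans (add_le_add e2 ?_)
      rw [abs_mul, abs_mul]
      gcongr
    rw [abs_mul, abs_of_pos (by linarith)] at h3
    nlinarith [abs_nonneg d2]
  have b3 : ‖d‖ ≤ |d1| + |d2| := by
    conv_lhs => rw [hd]
    refine (norm_add_le _ _).trans (le_of_eq ?_)
    rw [norm_smul, norm_smul, h1, h2]; simp
  rw [div_mul_eq_mul_div, le_div_iff₀ hκ]
  nlinarith

/-- the local covering lemma -/
lemma local_cover (h L : ℝ) (hL : 0 < L) (A : E2 →L[ℝ] E2)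
    (htr : LinearMap.trace ℝ _ A.toLinearMap = 0)
    (hdet : -(L ^ 2)⁻¹ < LinearMap.det A.toLinearMap ∧ LinearMap.det A.toLinearMap ≤ 0)
    {η : ℝ} (hη : 0 < η) :
    ∃ θ : ℝ, 0 < θ ∧ ∀ (x v : E2) (r j : ℝ), 0 < r →
      (∀ y : E2, ‖y‖ ≤ (1 + 3 * η) * r → J h (v + A y) ≤ j) →
      SqCover h {z : ℝ × E2 | ∃ y e : E2, ‖y‖ ≤ (1 + η) * r ∧ ‖e‖ ≤ θ * ‖y‖ ∧ |z.1| ≤ L ∧
        z.2 = x + y + z.1 • (v + A y + e)} (j * (Real.pi * ((1 + 3 * η) * r) ^ 2)) := by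
  classical
  obtain ⟨f1, f2, β, γ, h1, h2, h12, hexp, a1, a2, hd⟩ := exists_frame A htr
  rw [hd] at hdet
  have hβγ0 : 0 ≤ β * γ := by linarith [hdet.2]
  have hβγ : L ^ 2 * (β * γ) < 1 := by
    have h3 : β * γ < (L ^ 2)⁻¹ := by linarith [hdet.1]
    have := mul_lt_mul_of_pos_left h3 (show 0 < L ^ 2 by positivity)
    rwa [mul_inv_cancel₀ (by positivity)] at this
  obtain ⟨C, hC, hCb⟩ := apriori h1 h2 h12 hexp a1 a2 hL hβγ0 hβγ
  refine ⟨η / (C * L * (1 + η)), by positivity, fun x v r j hr hj => ?_⟩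
  set θ := η / (C * L * (1 + η)) with hθ
  have hθ' : C * L * (1 + η) * θ = η := by rw [hθ]; field_simp
  set ρ := η * r / (2 * C + 2) with hρd
  have hρ : 0 < ρ := by positivity
  have hρ' : (2 * C + 2) * ρ = η * r := by rw [hρd]; field_simp
  set R := (1 + 3 * η) * r - 2 * ρ with hR
  have hR0 : 0 ≤ R := by rw [hR]; nlinarith
  let K : ℤ := ⌈R / ρ⌉
  let F : Finset (ℤ × ℤ) := (Finset.Icc (-K) K ×ˢ Finset.Icc (-K) K).filter
    (fun n => ‖(n.1 * ρ) • f1 + (n.2 * ρ) • f2‖ ≤ R)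
  have n1 : inner ℝ f1 f1 = (1 : ℝ) := by rw [real_inner_self_eq_norm_sq, h1]; norm_num
  have n2 : inner ℝ f2 f2 = (1 : ℝ) := by rw [real_inner_self_eq_norm_sq, h2]; norm_num
  have h21 : inner ℝ f2 f1 = (0 : ℝ) := by rw [real_inner_comm, h12]
  have hF : ∀ n : ℤ × ℤ, ‖(n.1 * ρ) • f1 + (n.2 * ρ) • f2‖ ≤ R → n ∈ F := by
    intro n hn
    have box : ∀ m : ℤ, |m * ρ| ≤ R → m ∈ Finset.Icc (-K) K := by
      intro m hm
      rw [abs_mul, abs_of_pos hρ, ← le_div_iff₀ hρ] at hm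
      have : |(m : ℝ)| ≤ K := hm.trans (Int.le_ceil _)
      rw [Finset.mem_Icc, ← abs_le]
      exact_mod_cast this
    refine Finset.mem_filter.2 ⟨Finset.mem_product.2 ⟨box _ ?_, box _ ?_⟩, hn⟩
    · have := abs_real_inner_le_norm ((n.1 * ρ) • f1 + (n.2 * ρ) • f2) f1
      rw [h1, mul_one, inner_add_left, real_inner_smul_left, real_inner_smul_left, n1, h21] at this
      simp only [mul_one, mul_zero, add_zero] at this
      linarith
    · have := abs_real_inner_le_norm ((n.1 * ρ) • f1 + (n.2 * ρ) • f2) f2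
      rw [h2, mul_one, inner_add_left, real_inner_smul_left, real_inner_smul_left, n2, h12] at this
      simp only [mul_one, mul_zero, zero_add] at this
      linarith
  refine ⟨F, inferInstance, fun n => x + ((n.1.1 * ρ) • f1 + (n.1.2 * ρ) • f2), fun _ => ρ • f1,
    fun _ => ρ • f2, fun n => v + A ((n.1.1 * ρ) • f1 + (n.1.2 * ρ) • f2), ?_, ?_, ?_⟩
  · intro n
    refine ⟨?_, by simp [norm_smul, h1, h2], by simp [real_inner_smul_left, real_inner_smul_right, h12]⟩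
    intro h0
    have := congrArg norm h0
    rw [norm_smul, h1, norm_zero, Real.norm_eq_abs, abs_of_pos hρ] at this
    linarith
  · rintro ⟨s, ξ⟩ ⟨y, e, hy, he, hs, hξ⟩
    simp only at hs hξ
    have s2 : s ^ 2 ≤ L ^ 2 := by rw [← sq_abs s]; exact pow_le_pow_left₀ (abs_nonneg _) hs 2
    set w := y + s • A y + s • e with hw
    obtain ⟨m1, m2, ⟨k1, k2⟩, ⟨k3, k4⟩⟩ := lattice_cover (t := s * γ) (u := s * β)
      (by nlinarith [mul_nonneg (sq_nonneg s) hβγ0]) (by nlinarith) (inner ℝ w f1 / ρ)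
      (inner ℝ w f2 / ρ)
    set α1 := inner ℝ w f1 / ρ - (m1 + s * β * m2) with hα1
    set α2 := inner ℝ w f2 / ρ - (m2 + s * γ * m1) with hα2
    set n : E2 := (m1 * ρ) • f1 + (m2 * ρ) • f2 with hn
    have hwn : w = n + s • A n + (α1 • ρ • f1 + α2 • ρ • f2) := by
      have i1 : inner ℝ w f1 = (α1 + (m1 + s * β * m2)) * ρ := by rw [hα1]; field_simp; ring
      have i2 : inner ℝ w f2 = (α2 + (m2 + s * γ * m1)) * ρ := by rw [hα2]; field_simp; ring
      rw [hexp w, i1, i2, hn, map_add, map_smul, map_smul, a1, a2]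
      module
    have hnR : ‖n‖ ≤ R := by
      have b0 := hCb s hs (n - y)
      have e1 : n - y + s • A (n - y) = s • e - (α1 • ρ • f1 + α2 • ρ • f2) := by
        rw [map_sub, smul_sub]
        have : y + s • A y + s • e = n + s • A n + (α1 • ρ • f1 + α2 • ρ • f2) := hwn
        linear_combination (norm := module) -this
      have b1 : ‖α1 • ρ • f1 + α2 • ρ • f2‖ ≤ 2 * ρ := by
        refine (norm_add_le _ _).trans ?_
        simp only [norm_smul, h1, h2, Real.norm_eq_abs, abs_of_pos hρ, abs_of_nonneg k1,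
          abs_of_nonneg k3]
        nlinarith
      have b2 : ‖s • e‖ ≤ L * (θ * ((1 + η) * r)) := by
        rw [norm_smul, Real.norm_eq_abs]
        have hθ0 : 0 ≤ θ := by positivity
        exact mul_le_mul hs (he.trans (mul_le_mul_of_nonneg_left hy hθ0)) (norm_nonneg _) hL.le
      rw [e1] at b0
      have b3 := norm_sub_le (s • e) (α1 • ρ • f1 + α2 • ρ • f2)
      have b4 : ‖n - y‖ ≤ C * (L * (θ * ((1 + η) * r)) + 2 * ρ) :=
        b0.trans (mul_le_mul_of_nonneg_left (by linarith) hC.le)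
      have b5 : C * (L * (θ * ((1 + η) * r)) + 2 * ρ) = η * r + 2 * C * ρ := by
        linear_combination r * hθ'
      have b6 : ‖n‖ ≤ ‖n - y‖ + ‖y‖ := by simpa using norm_add_le (n - y) y
      rw [hR]; linarith
    refine mem_iUnion.2 ⟨⟨(m1, m2), hF _ hnR⟩, α1, ⟨k1, k2⟩, α2, ⟨k3, k4⟩, ?_⟩
    simp only
    rw [hξ, ← hn]
    have : y + s • A y + s • e = n + s • A n + (α1 • ρ • f1 + α2 • ρ • f2) := hwn
    linear_combination (norm := module) this
  · have hj0 : 0 ≤ j := (J_pos h _).le.trans (hj 0 (by simp; positivity))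
    have hc := card_grid_le h1 h2 h12 hρ hR0 F (fun n hn => (Finset.mem_filter.1 hn).2)
    have e : R + 2 * ρ = (1 + 3 * η) * r := by rw [hR]; ring
    rw [e] at hc
    calc ∑ n : F, ‖ρ • f1‖ ^ 2 * J h (v + A ((n.1.1 * ρ) • f1 + (n.1.2 * ρ) • f2))
        ≤ ∑ _n : F, ρ ^ 2 * j := by
          apply Finset.sum_le_sum
          intro n _
          rw [norm_smul, h1, mul_one, Real.norm_eq_abs, sq_abs]
          apply mul_le_mul_of_nonneg_left _ (by positivity)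
          apply hj
          have := (Finset.mem_filter.1 n.2).2
          linarith
      _ = j * (ρ ^ 2 * F.card) := by simp; ring
      _ ≤ _ := mul_le_mul_of_nonneg_left hc hj0

end Crest.Agent.R211
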