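import Mathlib
import Crest.Agent.R211.Cover

set_option autoImplicit false

namespace Crest.Agent.R211

open MeasureTheory Set
open scoped ENNReal Pointwise

/-- a finite cover by cylinders over parallelograms -/
def ParCover {ι : Type} (K : Set E3) (u c a b : ι → E3) : Prop :=
  (∀ i, ‖u i‖ = 1) ∧
  (∀ i, inner ℝ (c i) (u i) = 0 ∧ inner ℝ (a i) (u i) = 0 ∧ inner ℝ (b i) (u i) = 0) ∧
  K ⊆ ⋃ i, {x : E3 | ∃ s ∈ Set.Icc (0 : ℝ) 1, ∃ t ∈ Set.Icc (0 : ℝ) 1, ∃ τ : ℝ,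
    x = c i + s • a i + t • b i + τ • u i}

lemma ParCover.reindex {ι κ : Type} {K : Set E3} {u c a b : ι → E3} (h : ParCover K u c a b)
    (e : κ ≃ ι) : ParCover K (u ∘ e) (c ∘ e) (a ∘ e) (b ∘ e) := by
  refine ⟨fun i => h.1 _, fun i => h.2.1 _, fun x hx => ?_⟩
  obtain ⟨i, hi⟩ := mem_iUnion.1 (h.2.2 hx)
  obtain ⟨j, rfl⟩ := e.surjective i
  exact mem_iUnion.2 ⟨j, hi⟩

lemma sum_fin_lin (n : ℕ) (hn : 0 < n) :
    ∑ j : Fin n, (1 - (j : ℝ) / n) * (1 / n) = (1 + 1 / n) / 2 := by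
  have h : ∀ m : ℕ, ∑ j ∈ Finset.range m, (j : ℝ) = m * (m - 1) / 2 := by
    intro m
    induction m with
    | zero => simp
    | succ k ih => rw [Finset.sum_range_succ, ih]; push_cast; ring
  have hn' : (n : ℝ) ≠ 0 := by positivity
  rw [Fin.sum_univ_eq_sum_range (fun j => (1 - (j : ℝ) / n) * (1 / n)), ← Finset.sum_mul,
    Finset.sum_sub_distrib, ← Finset.sum_div, h]
  simp only [Finset.sum_const, Finset.card_range, nsmul_eq_mul]
  field_simp
  ring

lemma TriCover.toPar {ι : Type} [Fintype ι] {K : Set E3} {u p q r : ι → E3}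
    (h : TriCover K u p q r) (n : ℕ) (hn : 0 < n) :
    ∃ u' c a b : ι × Fin n → E3, ParCover K u' c a b ∧
      ∑ i, gram (a i) (b i) = (1 + 1 / n) * ∑ i, gram (q i - p i) (r i - p i) / 2 := by
  have hn' : (0 : ℝ) < n := by positivity
  refine ⟨fun i => u i.1, fun i => p i.1 + ((i.2 : ℝ) / n) • (r i.1 - p i.1),
    fun i => (1 - (i.2 : ℝ) / n) • (q i.1 - p i.1), fun i => ((1 : ℝ) / n) • (r i.1 - p i.1),
    ⟨fun i => h.1 _, fun i => ?_, fun x hx => ?_⟩, ?_⟩
  · obtain ⟨a, b, c⟩ := h.2.1 i.1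
    simp only [inner_add_left, real_inner_smul_left, inner_sub_left, a, b, c]
    simp
  · obtain ⟨i, b, hb, τ, rfl⟩ := mem_iUnion.1 (h.2.2 hx)
    obtain ⟨α, β, hα, hβ, hαβ, rfl⟩ := mem_convexHull_three.1 hb
    obtain ⟨j, hj, h1, h2⟩ := discrete_ivt (fun j => (j : ℝ) - β * n) n hn
      (by simp; positivity) (by nlinarith)
    simp only [Nat.cast_add, Nat.cast_one] at h1 h2
    have hj' : (j : ℝ) + 1 ≤ n := by exact_mod_cast hj
    have hpos : 0 < 1 - (j : ℝ) / n := by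
      rw [sub_pos, div_lt_one hn']; linarith
    have hjβ : (j : ℝ) / n ≤ β := by rw [div_le_iff₀ hn']; linarith
    refine mem_iUnion.2 ⟨(i, ⟨j, hj⟩), α / (1 - (j : ℝ) / n), ⟨by positivity, ?_⟩, β * n - j,
      ⟨by linarith, by linarith⟩, τ, ?_⟩
    · rw [div_le_one hpos]; linarith
    · simp only [smul_smul]
      rw [div_mul_cancel₀ _ hpos.ne']
      have : (β * n - j) * (1 / n) = β - j / n := by field_simp
      rw [this]
      module
  · rw [Fintype.sum_prod_type, Finset.mul_sum]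
    apply Finset.sum_congr rfl
    intro i _
    simp only [gram_smul]
    rw [← Finset.sum_mul]
    have : ∀ j : Fin n, |(1 - (j : ℝ) / n) * (1 / n)| = (1 - (j : ℝ) / n) * (1 / n) := by
      intro j
      apply abs_of_nonneg
      have : (j : ℝ) ≤ n := by exact_mod_cast j.2.le
      have : (j : ℝ) / n ≤ 1 := by rw [div_le_one hn']; exact this
      exact mul_nonneg (by linarith) (by positivity)
    simp only [this, sum_fin_lin n hn]
    ring

lemma parCover_std : ∃ (k : ℕ) (u c a b : Fin k → E3), ParCover K0 u c a b ∧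
    ∑ i, gram (a i) (b i) < Real.sqrt 2 / 2 := by
  obtain ⟨u, p, q, r, hc, hA⟩ := cover_exact 8000000 le_rfl le_rfl
  obtain ⟨u', c, a, b, h1, h2⟩ := hc.toPar 10000000000 (by norm_num)
  let e := (Fintype.equivFin (Fin (2 * 8000000) × Fin 10000000000)).symm
  refine ⟨_, _, _, _, _, h1.reindex e, ?_⟩
  have := Equiv.sum_comp e (fun i => gram (a i) (b i))
  simp only [Function.comp]
  rw [this, h2, hA]
  have h2 : 0 < Real.sqrt 2 := by positivity
  push_cast
  nlinarith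

lemma ParCover.transport {ι : Type} {K : Set E3} {u c a b : ι → E3} (h : ParCover K u c a b)
    (T : E3 ≃ₗᵢ[ℝ] E3) (l : ℝ) (o : E3) :
    ParCover ((fun x => o + l • T x) '' K) (fun i => T (u i))
      (fun i => prj (T (u i)) o + l • T (c i)) (fun i => l • T (a i)) (fun i => l • T (b i)) := by
  have hu : ∀ i, ‖T (u i)‖ = 1 := fun i => by rw [T.norm_map, h.1]
  refine ⟨hu, fun i => ?_, ?_⟩
  · obtain ⟨h1, h2, h3⟩ := h.2.1 i
    simp only [inner_add_left, real_inner_smul_left, prj_inner (hu i), T.inner_map_map, h1, h2, h3]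
    simp
  · rintro _ ⟨x, hx, rfl⟩
    obtain ⟨i, s, hs, t, ht, τ, rfl⟩ := mem_iUnion.1 (h.2.2 hx)
    refine mem_iUnion.2 ⟨i, s, hs, t, ht, inner ℝ o (T (u i)) + l * τ, ?_⟩
    simp only [map_add, map_smul, prj_apply]
    module

lemma proj_transport (K : Set E3) (T : E3 ≃ₗᵢ[ℝ] E3) {l : ℝ} (hl : 0 < l) (o v : E3) :
    μHE[2] (prj v '' ((fun x => o + l • T x) '' K)) =
      ENNReal.ofReal (l ^ 2) * μHE[2] (prj (T.symm v) '' K) := by
  have e : prj v '' ((fun x => o + l • T x) '' K) =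
      (fun y => prj v o + y) '' (l • (T '' (prj (T.symm v) '' K))) := by
    rw [← image_smul, image_image, image_image, image_image, image_image]
    apply image_congr
    intro x _
    rw [map_add, map_smul]
    congr 2
    rw [prj_apply, prj_apply, map_sub, map_smul, T.apply_symm_apply, ← T.inner_map_map x,
      T.apply_symm_apply]
  rw [e, (isometry_add_left _).euclideanHausdorffMeasure_image,
    Measure.euclideanHausdorffMeasure_smul₀ 2 hl.ne', T.isometry.euclideanHausdorffMeasure_image,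
    ENNReal.smul_def, smul_eq_mul]
  congr 1
  rw [ENNReal.coe_pow, ENNReal.ofReal_pow hl.le, ← enorm_eq_nnnorm, Real.enorm_eq_ofReal hl.le]

lemma exists_similarity (w : Fin 4 → E3) (ℓ : ℝ) (hℓ : 0 < ℓ)
    (hw : ∀ i j, i ≠ j → dist (w i) (w j) = ℓ) :
    ∃ (T : E3 ≃ₗᵢ[ℝ] E3) (o : E3),
      convexHull ℝ (range w) = (fun x => o + (ℓ / 2) • T x) '' K0 := by
  have h2 : Real.sqrt 2 ^ 2 = 2 := Real.sq_sqrt (by norm_num)
  have h0 : 0 < Real.sqrt 2 := by positivity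
  set a := w 1 - w 0 with ha
  set b := w 2 - w 0 with hb
  set c := w 3 - w 0 with hc
  have nn : ∀ i j, i ≠ j → inner ℝ (w i - w j) (w i - w j) = ℓ ^ 2 := by
    intro i j hij
    rw [real_inner_self_eq_norm_sq, ← dist_eq_norm, hw i j hij]
  have aa : inner ℝ a a = ℓ ^ 2 := nn 1 0 (by decide)
  have bb : inner ℝ b b = ℓ ^ 2 := nn 2 0 (by decide)
  have cc : inner ℝ c c = ℓ ^ 2 := nn 3 0 (by decide)
  have cross : ∀ x y : E3, inner ℝ x x = ℓ ^ 2 → inner ℝ y y = ℓ ^ 2 →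
      inner ℝ (x - y) (x - y) = ℓ ^ 2 → inner ℝ x y = ℓ ^ 2 / 2 := by
    intro x y hx hy hxy
    rw [inner_sub_left, inner_sub_right, inner_sub_right, hx, hy, real_inner_comm x y] at hxy
    linarith
  have ab : inner ℝ a b = ℓ ^ 2 / 2 := cross a b aa bb (by
    rw [ha, hb, sub_sub_sub_cancel_right]; exact nn 1 2 (by decide))
  have ac : inner ℝ a c = ℓ ^ 2 / 2 := cross a c aa cc (by
    rw [ha, hc, sub_sub_sub_cancel_right]; exact nn 1 3 (by decide))
  have bc : inner ℝ b c = ℓ ^ 2 / 2 := cross b c bb cc (by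
    rw [hb, hc, sub_sub_sub_cancel_right]; exact nn 2 3 (by decide))
  let L : E3 →ₗ[ℝ] E3 :=
    { toFun := fun x => (x 0 / ℓ) • (-a) + (x 1 / ℓ) • (b - c) +
        (x 2 / (Real.sqrt 2 * ℓ)) • (b + c - a)
      map_add' := fun x y => by simp only [PiLp.add_apply, add_div]; module
      map_smul' := fun r x => by
        simp only [PiLp.smul_apply, smul_eq_mul, RingHom.id_apply, mul_div_assoc]; module }
  have hL : ∀ x, ‖L x‖ = ‖x‖ := by
    intro x
    apply (pow_left_inj₀ (norm_nonneg _) (norm_nonneg _) two_ne_zero).1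
    rw [normsq3 x, ← real_inner_self_eq_norm_sq]
    simp only [L, LinearMap.coe_mk, AddHom.coe_mk, inner_add_left, inner_add_right, inner_sub_left,
      inner_sub_right, inner_neg_left, inner_neg_right, real_inner_smul_left, real_inner_smul_right,
      real_inner_comm a b, real_inner_comm a c, real_inner_comm b c, aa, bb, cc, ab, ac, bc]
    field_simp
    ring_nf
    rw [h2]
    ring
  let T0 : E3 →ₗᵢ[ℝ] E3 := ⟨L, hL⟩
  let T : E3 ≃ₗᵢ[ℝ] E3 := T0.toLinearIsometryEquiv rfl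
  have hT : ∀ x, T x = (x 0 / ℓ) • (-a) + (x 1 / ℓ) • (b - c) +
        (x 2 / (Real.sqrt 2 * ℓ)) • (b + c - a) := fun x => rfl
  refine ⟨T, (1 / 2 : ℝ) • (w 0 + w 1), ?_⟩
  let F : E3 →ᵃ[ℝ] E3 := AffineMap.const ℝ E3 ((1 / 2 : ℝ) • (w 0 + w 1)) +
    ((ℓ / 2) • T.toLinearEquiv.toLinearMap).toAffineMap
  have hF : (fun x => (1 / 2 : ℝ) • (w 0 + w 1) + (ℓ / 2) • T x) = F := by
    funext x; simp [F]
  rw [hF, K0, AffineMap.image_convexHull, ← hF]
  congr 1
  have k1 : ℓ / 2 * (1 / ℓ) = 1 / 2 := by field_simp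
  have k2 : ℓ / 2 * (-1 / ℓ) = -1 / 2 := by field_simp
  have k3 : ℓ / 2 * (Real.sqrt 2 / (Real.sqrt 2 * ℓ)) = 1 / 2 := by field_simp
  have e0 : (1 / 2 : ℝ) • (w 0 + w 1) + (ℓ / 2) • T !₂[1, 0, 0] = w 0 := by
    rw [hT]; simp only [smul_add, smul_smul]; simp only [Matrix.cons_val, Matrix.cons_val_zero,
      Matrix.cons_val_one, zero_div, mul_zero, k1, ha]; module
  have e1 : (1 / 2 : ℝ) • (w 0 + w 1) + (ℓ / 2) • T !₂[-1, 0, 0] = w 1 := by
    rw [hT]; simp only [smul_add, smul_smul]; simp only [Matrix.cons_val, Matrix.cons_val_zero,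
      Matrix.cons_val_one, zero_div, mul_zero, k2, ha]; module
  have e2 : (1 / 2 : ℝ) • (w 0 + w 1) + (ℓ / 2) • T !₂[0, 1, Real.sqrt 2] = w 2 := by
    rw [hT]; simp only [smul_add, smul_smul]; simp only [Matrix.cons_val, Matrix.cons_val_zero,
      Matrix.cons_val_one, zero_div, mul_zero, k1, k3, ha, hb, hc]; module
  have e3 : (1 / 2 : ℝ) • (w 0 + w 1) + (ℓ / 2) • T !₂[0, -1, Real.sqrt 2] = w 3 := by
    rw [hT]; simp only [smul_add, smul_smul]; simp only [Matrix.cons_val, Matrix.cons_val_zero,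
      Matrix.cons_val_one, zero_div, mul_zero, k2, k3, ha, hb, hc]; module
  simp only [image_insert_eq, image_singleton, e0, e1, e2, e3]
  ext x
  simp only [mem_range, mem_insert_iff, mem_singleton_iff]
  constructor
  · rintro ⟨i, rfl⟩; fin_cases i <;> simp
  · rintro (rfl | rfl | rfl | rfl) <;> exact ⟨_, rfl⟩

lemma final_ineq {k : ℕ} {K : Set E3} {m : ℝ} (hm0 : 0 < m)
    (hm : ∀ v : E3, ‖v‖ = 1 → m ≤ (μHE[2] (prj v '' K)).toReal) (A : Fin k → ℝ)
    (hA0 : ∀ i, 0 ≤ A i) (hA : ∑ i, A i < m / 2) (u : Fin k → E3) (hu : ∀ i, ‖u i‖ = 1) :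
    (∃ δ : ℝ, 0 < δ ∧ ∀ v : E3, ‖v‖ = 1 → (∑ i, A i) + δ ≤ (μHE[2] (prj v '' K)).toReal / 2) ∧
      ∑ i, A i / (μHE[2] (prj (u i) '' K)).toReal < 1 / 2 := by
  refine ⟨⟨m / 2 - ∑ i, A i, by linarith, fun v hv => by linarith [hm v hv]⟩, ?_⟩
  calc ∑ i, A i / (μHE[2] (prj (u i) '' K)).toReal ≤ ∑ i, A i / m :=
        Finset.sum_le_sum fun i _ => div_le_div_of_nonneg_left (hA0 i) hm0 (hm _ (hu i))
    _ = (∑ i, A i) / m := by rw [Finset.sum_div]
    _ < 1 / 2 := by rw [div_lt_iff₀ hm0]; linarith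

/-- open bases from parallelogram bases -/
lemma ParCover.toOpen {k : ℕ} {K : Set E3} {u c a b : Fin k → E3} (h : ParCover K u c a b)
    {η : ℝ} (hη : 0 < η) :
    ∃ B : Fin k → Set E3, (∀ i, Bornology.IsBounded (B i) ∧ ∃ O : Set E3, IsOpen O ∧
        B i = O ∩ {x | inner ℝ x (u i) = 0}) ∧
      K ⊆ ⋃ i, {x : E3 | ∃ y ∈ B i, ∃ τ : ℝ, x = y + τ • u i} ∧
      ∑ i, (μHE[2] (B i)).toReal ≤ ∑ i, gram (a i) (b i) + η := by
  have hk : (0 : ℝ) < k + 1 := by positivity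
  have ex : ∀ i, ∃ B' : Set E3, par (c i) (a i) (b i) ⊆ B' ∧ (Bornology.IsBounded B' ∧
      ∃ O : Set E3, IsOpen O ∧ B' = O ∩ {x | inner ℝ x (u i) = 0}) ∧
      (μHE[2] B').toReal ≤ (μHE[2] (par (c i) (a i) (b i))).toReal + η / (k + 1) := by
    intro i
    apply exists_open_base _ (par_compact _ _ _) _ (by positivity)
    · intro h0; have := h.1 i; rw [h0] at this; simp at this
    · rintro _ ⟨s, _, t, _, rfl⟩
      obtain ⟨h1, h2, h3⟩ := h.2.1 i
      simp only [inner_add_left, real_inner_smul_left, h1, h2, h3]; simp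
  choose B h1 h2 h3 using ex
  refine ⟨B, h2, fun x hx => ?_, ?_⟩
  · obtain ⟨i, s, hs, t, ht, τ, rfl⟩ := mem_iUnion.1 (h.2.2 hx)
    exact mem_iUnion.2 ⟨i, _, h1 i ⟨s, hs, t, ht, rfl⟩, τ, rfl⟩
  · simp only [toReal_par] at h3
    refine (Finset.sum_le_sum fun i _ => h3 i).trans ?_
    rw [Finset.sum_add_distrib]
    simp only [Finset.sum_const, Finset.card_univ, Fintype.card_fin, nsmul_eq_mul]
    have : (k : ℝ) * (η / (k + 1)) ≤ η := by
      rw [← mul_div_assoc, div_le_iff₀ hk]; nlinarith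
    linarith

lemma regular_cover (w : Fin 4 → E3) (ℓ : ℝ) (hℓ : 0 < ℓ)
    (hw : ∀ i j, i ≠ j → dist (w i) (w j) = ℓ) :
    ∃ (m : ℝ) (k : ℕ) (u c a b : Fin k → E3), 0 < m ∧
      (∀ v : E3, ‖v‖ = 1 → m ≤ (μHE[2] (prj v '' convexHull ℝ (range w))).toReal) ∧
      ParCover (convexHull ℝ (range w)) u c a b ∧ ∑ i, gram (a i) (b i) < m / 2 := by
  obtain ⟨T, o, hK⟩ := exists_similarity w ℓ hℓ hw
  obtain ⟨k, u, c, a, b, h1, h2⟩ := parCover_std
  have hl : 0 < ℓ / 2 := by positivity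
  have hs : 0 < Real.sqrt 2 := by positivity
  refine ⟨(ℓ / 2) ^ 2 * Real.sqrt 2, k, _, _, _, _, by positivity, ?_,
    hK ▸ h1.transport T (ℓ / 2) o, ?_⟩
  · intro v hv
    have hv' : ‖T.symm v‖ = 1 := by rw [T.symm.norm_map, hv]
    rw [hK, proj_transport _ T hl, ENNReal.toReal_mul, ENNReal.toReal_ofReal (by positivity)]
    apply mul_le_mul_of_nonneg_left _ (by positivity)
    have h5 := ENNReal.toReal_mono (proj_lt_top hv' K0_compact).ne (proj_K0_ge hv')
    rwa [ENNReal.toReal_ofReal hs.le] at h5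
  · simp only [gram_smul]
    have : ∀ i, gram (T (a i)) (T (b i)) = gram (a i) (b i) := fun i =>
      gram_map T.toLinearIsometry _ _
    simp only [this, abs_mul_self]
    rw [← Finset.mul_sum]
    nlinarith [mul_pos hl hl]

end Crest.Agent.R211
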