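import Mathlib
import Crest.Agent.R211.Lattice

set_option autoImplicit false

namespace Crest.Agent.R211

open MeasureTheory Set Filter Topology
open scoped ENNReal

theorem sqCover_ruled (D : Set E2) (hD : IsCompact D) (V : E2 → E2) (U : Set E2)
    (hU : IsOpen U) (hDU : D ⊆ U) (hV : ContDiffOn ℝ 1 V U) (L h : ℝ) (hL : 0 < L)
    (htr : ∀ p ∈ D, LinearMap.trace ℝ _ (fderiv ℝ V p).toLinearMap = 0)
    (hdet : ∀ p ∈ D, -(L ^ 2)⁻¹ < LinearMap.det (fderiv ℝ V p).toLinearMap ∧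
      LinearMap.det (fderiv ℝ V p).toLinearMap ≤ 0)
    (ε : ℝ) (hε : 0 < ε) :
    SqCover h {z : ℝ × E2 | ∃ p ∈ D, abs z.1 ≤ L ∧ z.2 = p + z.1 • V p}
      ((∫ p in D, J h (V p)) + ε) := by
  classical
  set I := ∫ p in D, J h (V p) with hI
  have hI0 : 0 ≤ I := integral_nonneg fun p => (J_pos h _).le
  -- choice of η
  obtain ⟨η, hη0, hη1, hηI⟩ : ∃ η : ℝ, 0 < η ∧ η ≤ 1 ∧
      (1 + η) ^ 2 * (1 + 3 * η) ^ 2 * (I + η) ≤ I + ε := by
    have hc : Continuous fun η : ℝ => (1 + η) ^ 2 * (1 + 3 * η) ^ 2 * (I + η) := by fun_prop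
    have h1 : ∀ᶠ η in 𝓝 (0 : ℝ), (1 + η) ^ 2 * (1 + 3 * η) ^ 2 * (I + η) < I + ε :=
      hc.continuousAt.eventually (gt_mem_nhds (by simp; linarith))
    have h2 : ∀ᶠ η in 𝓝 (0 : ℝ), η < 1 := gt_mem_nhds one_pos
    obtain ⟨η, ⟨a, b⟩, c⟩ := (((h1.and h2).filter_mono nhdsWithin_le_nhds).and
      (self_mem_nhdsWithin (s := Ioi (0 : ℝ)))).exists
    exact ⟨η, c, b.le, a.le⟩
  have hVc : ContinuousOn V U := hV.continuousOn
  have hFc : ContinuousOn (fun p => J h (V p)) U := (J_continuous h).comp_continuousOn hVc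
  -- pointwise radii
  have loc : ∀ x ∈ D, ∃ r0 : ℝ, 0 < r0 ∧ ∀ r, 0 < r → r ≤ r0 →
      SqCover h {z : ℝ × E2 | ∃ p ∈ Metric.ball x ((1 + η) * r), abs z.1 ≤ L ∧ z.2 = p + z.1 • V p}
        ((1 + η) * J h (V x) * (Real.pi * ((1 + 3 * η) * r) ^ 2)) ∧
      ∀ p ∈ Metric.closedBall x r, J h (V x) / (1 + η) ≤ J h (V p) := by
    intro x hx
    obtain ⟨θ, hθ, hloc⟩ := local_cover h L hL (fderiv ℝ V x) (htr x hx) (hdet x hx) hη0
    have hxU : U ∈ 𝓝 x := hU.mem_nhds (hDU hx)
    have hdiff : HasFDerivAt V (fderiv ℝ V x) x :=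
      ((hV.contDiffAt hxU).differentiableAt (by norm_num)).hasFDerivAt
    have e1 : ∀ᶠ p in 𝓝 x, ‖V p - V x - fderiv ℝ V x (p - x)‖ ≤ θ * ‖p - x‖ :=
      hdiff.isLittleO.bound hθ
    have hJ := J_pos h (V x)
    have e2 : ∀ᶠ p in 𝓝 x, J h (V x) / (1 + η) < J h (V p) :=
      (hFc.continuousAt hxU).eventually (lt_mem_nhds (by
        rw [div_lt_iff₀ (by linarith)]; nlinarith))
    have e3 : ∀ᶠ p in 𝓝 x, J h (V x + fderiv ℝ V x (p - x)) < (1 + η) * J h (V x) := by
      have hc : Continuous fun p : E2 => J h (V x + fderiv ℝ V x (p - x)) :=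
        (J_continuous h).comp (by fun_prop)
      exact hc.continuousAt.eventually (gt_mem_nhds (by simp; nlinarith))
    obtain ⟨δ, hδ, hball⟩ := Metric.eventually_nhds_iff_ball.1 (e1.and (e2.and e3))
    refine ⟨δ / 5, by positivity, fun r hr hr0 => ⟨?_, fun p hp => ?_⟩⟩
    · refine (hloc x (V x) r ((1 + η) * J h (V x)) hr ?_).mono ?_ le_rfl
      · intro y hy
        have := (hball (x + y) (by
          rw [mem_ball_iff_norm, add_sub_cancel_left]; nlinarith)).2.2
        rw [add_sub_cancel_left] at this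
        exact this.le
      · rintro ⟨s, ξ⟩ ⟨p, hp, hs, hξ⟩
        rw [mem_ball_iff_norm] at hp
        refine ⟨p - x, V p - V x - fderiv ℝ V x (p - x), hp.le,
          (hball p (by rw [mem_ball_iff_norm]; nlinarith)).1, hs, ?_⟩
        simp only at hξ ⊢
        rw [hξ]; congr 1
        · abel
        · congr 1; abel
    · rw [mem_closedBall_iff_norm] at hp
      exact (hball p (by rw [mem_ball_iff_norm]; linarith)).2.1.le
  choose! r0 hr0 hloc using loc
  let μ : Measure E2 := volume.withDensity (fun p => ENNReal.ofReal (J h (V p)))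
  have hμle : μ ≤ volume := by
    intro s
    calc μ s ≤ volume.withDensity (1 : E2 → ℝ≥0∞) s := by
          apply withDensity_mono
          filter_upwards with p
          simpa using J_le_one h (V p)
      _ = volume s := by rw [withDensity_one]
  haveI : IsLocallyFiniteMeasure μ := Measure.isLocallyFiniteMeasure_of_le hμle
  obtain ⟨t, r, -, htD, hr, hcov, hsum⟩ := Besicovitch.exists_closedBall_covering_tsum_measure_le μ
    (ε := ENNReal.ofReal η) (by simpa using hη0) (fun x => Ioc 0 (r0 x)) D (by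
      intro x hx δ hδ
      have := hr0 x hx
      refine ⟨min (r0 x) (δ / 2), ⟨by positivity, min_le_left _ _⟩, by positivity, ?_⟩
      exact (min_le_right _ _).trans_lt (by linarith))
  obtain ⟨t', ht', hfin, hcov'⟩ := hD.elim_finite_subcover_image
    (b := t) (c := fun x => Metric.ball x ((1 + η) * r x)) (fun _ _ => Metric.isOpen_ball) (by
      refine hcov.trans (iUnion₂_mono fun x hx => Metric.closedBall_subset_ball ?_)
      nlinarith [(hr x hx).1])
  have hμD : μ D = ENNReal.ofReal I := by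
    rw [withDensity_apply _ hD.isClosed.measurableSet, hI, ofReal_integral_eq_lintegral_ofReal]
    · exact (hFc.mono hDU).integrableOn_compact hD
    · filter_upwards with p using (J_pos h _).le
  have hball : ∀ x ∈ t, J h (V x) * (Real.pi * r x ^ 2) ≤
      (1 + η) * (μ (Metric.closedBall x (r x))).toReal := by
    intro x hx
    have hx0 := (hr x hx).1
    have hJ := J_pos h (V x)
    have h1 : ENNReal.ofReal (J h (V x) / (1 + η)) * volume (Metric.closedBall x (r x)) ≤
        μ (Metric.closedBall x (r x)) := by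
      rw [withDensity_apply _ Metric.isClosed_closedBall.measurableSet, ← setLIntegral_const]
      apply setLIntegral_mono' Metric.isClosed_closedBall.measurableSet
      intro p hp
      exact ENNReal.ofReal_le_ofReal ((hloc x (htD hx) _ hx0 (hr x hx).2).2 p hp)
    have h2 := ENNReal.toReal_mono measure_closedBall_lt_top.ne h1
    rw [EuclideanSpace.volume_closedBall_fin_two, ← ENNReal.ofReal_pow hx0.le,
      ← ENNReal.ofReal_mul (by positivity), ← ENNReal.ofReal_mul (by positivity),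
      ENNReal.toReal_ofReal (by positivity), div_mul_eq_mul_div, div_le_iff₀ (by linarith)] at h2
    linarith
  have hs2 : ∑ x ∈ hfin.toFinset, (μ (Metric.closedBall x (r x))).toReal ≤ I + η := by
    rw [← ENNReal.toReal_sum (fun x _ => measure_closedBall_lt_top.ne)]
    apply ENNReal.toReal_le_of_le_ofReal (by linarith)
    rw [ENNReal.ofReal_add hI0 hη0.le, ← hμD]
    refine le_trans ?_ hsum
    rw [tsum_subtype t (fun x => μ (Metric.closedBall x (r x)))]
    refine le_trans (le_of_eq ?_) (ENNReal.sum_le_tsum hfin.toFinset)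
    apply Finset.sum_congr rfl
    intro x hx
    rw [indicator_of_mem (ht' (hfin.mem_toFinset.1 hx))]
  have key := SqCover.biUnion (h := h) hfin.toFinset _ _ (fun x hx =>
    (hloc x (htD (ht' (hfin.mem_toFinset.1 hx))) (r x) (hr x (ht' (hfin.mem_toFinset.1 hx))).1
      (hr x (ht' (hfin.mem_toFinset.1 hx))).2).1)
  refine key.mono ?_ ?_
  · rintro z ⟨p, hp, hz⟩
    obtain ⟨x, hx, hpx⟩ := mem_iUnion₂.1 (hcov' hp)
    exact mem_iUnion₂.2 ⟨x, hfin.mem_toFinset.2 hx, p, hpx, hz⟩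
  · refine le_trans ?_ hηI
    refine le_trans ?_ (mul_le_mul_of_nonneg_left hs2 (by positivity))
    rw [Finset.mul_sum]
    apply Finset.sum_le_sum
    intro x hx
    have := hball x (ht' (hfin.mem_toFinset.1 hx))
    have h3 : 0 ≤ (1 + η) * (1 + 3 * η) ^ 2 := by positivity
    nlinarith [mul_le_mul_of_nonneg_left this h3]

theorem SqCover.toFin {h : ℝ} {W : Set (ℝ × E2)} {w : ℝ} (H : SqCover h W w) :
    ∃ (k : ℕ) (c a b g : Fin k → E2),
    (∀ i, a i ≠ 0 ∧ ‖b i‖ = ‖a i‖ ∧ inner ℝ (a i) (b i) = 0) ∧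
    W ⊆ ⋃ i, {z : ℝ × E2 | ∃ x ∈ Set.Icc (0 : ℝ) 1, ∃ y ∈ Set.Icc (0 : ℝ) 1,
      z.2 = c i + x • a i + y • b i + z.1 • g i} ∧
    ∑ i, ‖a i‖ ^ 2 * J h (g i) ≤ w := by
  obtain ⟨ι, _, c, a, b, g, h1, h2, h3⟩ := H
  let e := (Fintype.equivFin ι).symm
  refine ⟨_, c ∘ e, a ∘ e, b ∘ e, g ∘ e, fun i => h1 _, fun z hz => ?_, ?_⟩
  · obtain ⟨i, hi⟩ := mem_iUnion.1 (h2 hz)
    obtain ⟨j, rfl⟩ := e.surjective i
    exact mem_iUnion.2 ⟨j, hi⟩
  · rw [← Equiv.sum_comp e] at h3
    exact h3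

end Crest.Agent.R211
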