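import Mathlib
import Crest.Agent.R211.Tet

set_option autoImplicit false

namespace Crest.Agent.R211

open MeasureTheory Set Filter Topology
open scoped ENNReal

lemma fin_telescope {N : ℕ} (f : Fin (N + 1) → ℝ) :
    ∑ i : Fin N, (f i.succ - f i.castSucc) = f (Fin.last N) - f 0 := by
  have h1 := Fin.sum_univ_succ f
  have h2 := Fin.sum_univ_castSucc f
  rw [Finset.sum_sub_distrib]; linarith

lemma fin_locate {N : ℕ} (t : Fin (N + 1) → ℝ) (hlt : t 0 < t (Fin.last N)) {τ : ℝ}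
    (h0 : t 0 ≤ τ) (h1 : τ ≤ t (Fin.last N)) : ∃ i : Fin N, t i.castSucc ≤ τ ∧ τ ≤ t i.succ := by
  have hN : 0 < N := by
    rcases Nat.eq_zero_or_pos N with h | h
    · subst h; simp at hlt
    · exact h
  obtain ⟨i, hi, a, b⟩ := discrete_ivt (fun n => if h : n < N + 1 then t ⟨n, h⟩ - τ else 0) N hN
    (by simp only [Nat.zero_lt_succ, dif_pos]; exact sub_nonpos.2 h0)
    (by simp only [Nat.lt_succ_self, dif_pos]; exact sub_nonneg.2 h1)
  rw [dif_pos (by omega)] at a b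
  exact ⟨⟨i, hi⟩, sub_nonpos.1 a, sub_nonneg.1 b⟩

lemma affInd_of_gram {p q r : E3} (h : 0 < gram (q - p) (r - p)) :
    AffineIndependent ℝ ![p, q, r] := by
  rw [affineIndependent_iff_not_collinear_set]
  intro hc
  obtain ⟨v, hv⟩ := (collinear_iff_of_mem (p₀ := p) (by simp)).1 hc
  obtain ⟨r1, h1⟩ := hv q (by simp)
  obtain ⟨r2, h2⟩ := hv r (by simp)
  rw [h1, h2] at h
  simp only [vadd_eq_add, add_sub_cancel_right, gram_smul, gram_self, mul_zero, lt_self_iff_false] at h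

lemma gram_pos {a b : E3} (hab : LinearIndependent ℝ ![a, b]) : 0 < gram a b := by
  rcases (gram_nonneg a b).eq_or_lt with h | h
  · exfalso
    have h2 := gram_sq a b
    rw [← h] at h2
    rw [LinearIndependent.pair_iff] at hab
    have ha : a ≠ 0 := by
      intro h0
      have := hab 1 0 (by simp [h0])
      simp at this
    have := hab (-inner ℝ a b) (‖a‖ ^ 2) (by
      apply norm_eq_zero.1
      apply (pow_eq_zero_iff two_ne_zero).1
      rw [← real_inner_self_eq_norm_sq]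
      simp only [inner_add_left, inner_add_right, real_inner_smul_left, real_inner_smul_right]
      simp only [real_inner_self_eq_norm_sq, real_inner_comm a b]
      linear_combination (-‖a‖ ^ 2) * h2)
    exact ha (norm_eq_zero.1 ((pow_eq_zero_iff two_ne_zero).1 this.2))
  · exact h

lemma det3_sweep {e a b w : E3} (he : ‖e‖ = 1) (ha : inner ℝ a e = 0) (hb : inner ℝ b e = 0)
    (hw : inner ℝ w e = 0) : |det3 a b (e + w)| = gram a b := by
  have h1 := gram_proj he a b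
  rw [ha, hb] at h1
  simp only [zero_smul, sub_zero] at h1
  rw [h1]
  congr 1
  have hn := normsq3 e
  rw [he] at hn
  rw [inner3] at ha hb hw
  simp only [det3, PiLp.add_apply]
  linear_combination
    (a 0 * (b 1 * w 2 - b 2 * w 1) - a 1 * (b 0 * w 2 - b 2 * w 0) + a 2 * (b 0 * w 1 - b 1 * w 0)) * hn +
    (e 0 * (b 1 * w 2 - b 2 * w 1) - e 1 * (b 0 * w 2 - b 2 * w 0) + e 2 * (b 0 * w 1 - b 1 * w 0)) * ha +
    (a 0 * (e 1 * w 2 - e 2 * w 1) - a 1 * (e 0 * w 2 - e 2 * w 0) + a 2 * (e 0 * w 1 - e 1 * w 0)) * hb +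
    (a 0 * (b 1 * e 2 - b 2 * e 1) - a 1 * (b 0 * e 2 - b 2 * e 0) + a 2 * (b 0 * e 1 - b 1 * e 0)) * hw

lemma norm_sweep {e w : E3} (he : ‖e‖ = 1) (hw : inner ℝ w e = 0) :
    ‖e + w‖ = Real.sqrt (1 + ‖w‖ ^ 2) := by
  rw [← Real.sqrt_sq (norm_nonneg (e + w)), norm_add_sq_real, real_inner_comm, hw, he]
  congr 1; ring

lemma sweep_ne {e w : E3} (he : ‖e‖ = 1) (hw : inner ℝ w e = 0) : e + w ≠ 0 := by
  rw [← norm_pos_iff, norm_sweep he hw]; positivity

lemma gram_sweep {e a b w : E3} (he : ‖e‖ = 1) (ha : inner ℝ a e = 0) (hb : inner ℝ b e = 0)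
    (hw : inner ℝ w e = 0) (P : E3) (H l r : ℝ) (hlr : l ≤ r) :
    gram (prj (unit (e + w)) (P + H • (a + l • b)) - prj (unit (e + w)) P)
      (prj (unit (e + w)) (P + H • (a + r • b)) - prj (unit (e + w)) P) / 2 =
      gram a b * ((r - l) * (H ^ 2 / (2 * Real.sqrt (1 + ‖w‖ ^ 2)))) := by
  rw [← map_sub, ← map_sub, gram_prj (norm_unit (sweep_ne he hw)), det3_unit, norm_sweep he hw]
  have : det3 (P + H • (a + l • b) - P) (P + H • (a + r • b) - P) (e + w) =
      H ^ 2 * (r - l) * det3 a b (e + w) := by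
    simp only [det3, add_sub_cancel_left, PiLp.add_apply, PiLp.smul_apply, smul_eq_mul]; ring
  rw [this, abs_div, abs_mul, det3_sweep he ha hb hw, abs_of_nonneg (Real.sqrt_nonneg _),
    abs_of_nonneg (mul_nonneg (sq_nonneg _) (by linarith))]
  ring

lemma prj_unit_eq {d : E3} (y : E3) :
    y - (inner ℝ y d / ‖d‖ ^ 2) • d = prj (unit d) y := by
  rw [prj_apply, unit, real_inner_smul_right, smul_smul]
  congr 2
  rw [div_eq_mul_inv, sq, mul_inv]; ring

lemma w_increment {a b : E3} {α β Λ : ℝ} {w : ℝ → E3} {lam : ℝ → ℝ}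
    (hlam : ContinuousOn lam (Icc α β)) (hΛ : ∀ t ∈ Icc α β, |lam t| ≤ Λ)
    (hw' : ∀ t ∈ Icc α β, HasDerivWithinAt w (lam t • (a + t • b)) (Icc α β) t)
    {c τ : ℝ} (hc : c ∈ Icc α β) (hτ : τ ∈ Icc α β) :
    ∃ φ ψ : ℝ, |φ| ≤ Λ * |τ - c| ∧ |ψ| ≤ Λ * |τ - c| * |τ - c| ∧
      w τ = w c + φ • (a + c • b) + ψ • b := by
  have hsub : uIcc c τ ⊆ Icc α β := uIcc_subset_Icc hc hτ
  have hl : ContinuousOn lam (uIcc c τ) := hlam.mono hsub
  have i1 : IntervalIntegrable lam volume c τ := hl.intervalIntegrable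
  have i2 : IntervalIntegrable (fun t => lam t * (t - c)) volume c τ :=
    (hl.mul (by fun_prop)).intervalIntegrable
  have hwc : ContinuousOn w (Icc α β) := fun t ht => (hw' t ht).continuousWithinAt
  have ftc : ∫ t in c..τ, lam t • (a + t • b) = w τ - w c := by
    apply intervalIntegral.integral_eq_sub_of_hasDeriv_right (hwc.mono hsub)
    · intro t ht
      have ht' : t ∈ Ioo α β := by
        constructor
        · exact lt_of_le_of_lt (le_min hc.1 hτ.1) ht.1
        · exact lt_of_lt_of_le ht.2 (max_le hc.2 hτ.2)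
      exact ((hw' t (Ioo_subset_Icc_self ht')).hasDerivAt (Icc_mem_nhds ht'.1 ht'.2)).hasDerivWithinAt
    · exact (hl.smul (by fun_prop)).intervalIntegrable
  refine ⟨∫ t in c..τ, lam t, ∫ t in c..τ, lam t * (t - c), ?_, ?_, ?_⟩
  · rw [← Real.norm_eq_abs]
    apply intervalIntegral.norm_integral_le_of_norm_le_const
    intro t ht
    rw [Real.norm_eq_abs]
    exact hΛ t (hsub (uIoc_subset_uIcc ht))
  · rw [← Real.norm_eq_abs]
    apply intervalIntegral.norm_integral_le_of_norm_le_const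
    intro t ht
    rw [Real.norm_eq_abs]
    exact abs_mul_le' (hΛ t (hsub (uIoc_subset_uIcc ht)))
      (abs_sub_left_of_mem_uIcc (uIoc_subset_uIcc ht))
  · have : ∀ t, lam t • (a + t • b) = lam t • (a + c • b) + (lam t * (t - c)) • b := by
      intro t; module
    simp only [this] at ftc
    rw [intervalIntegral.integral_add (i1.smul_continuousOn continuousOn_const)
      (i2.smul_continuousOn continuousOn_const),
      intervalIntegral.integral_smul_const, intervalIntegral.integral_smul_const] at ftc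
    rw [add_assoc, ftc]; abel

lemma sweep_sector {l r c τ ρ u v K H : ℝ} (hlr : l < r) (hc : l ≤ c ∧ c ≤ r) (hτ : l ≤ τ ∧ τ ≤ r)
    (hρ : 0 ≤ ρ) (hu : |u| ≤ K * (r - l)) (hv : |v| ≤ K * (r - l) * (r - l)) (hH0 : 0 < H)
    (hH : ρ + 5 * K * (r - l) ≤ H) :
    ∃ α β : ℝ, 0 ≤ α ∧ 0 ≤ β ∧ α + β ≤ 1 ∧
      ρ + u = -(4 * K * (r - l)) + H * (α + β) ∧
      ρ * τ + u * c + v = -(4 * K * (r - l)) * l - 2 * K * (r - l) ^ 2 + H * (α * l + β * r) := by
  set δ := r - l with hδd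
  have hδ : 0 < δ := by linarith
  set W := ρ + u + 4 * K * δ with hW
  set Z := ρ * τ + u * c + v + 4 * K * δ * l + 2 * K * δ ^ 2 with hZ
  have b1 := abs_le.1 (abs_mul_le' hu (show |c - l| ≤ δ by rw [abs_le]; constructor <;> linarith))
  have b2 := abs_le.1 (abs_mul_le' hu (show |r - c| ≤ δ by rw [abs_le]; constructor <;> linarith))
  have b3 := abs_le.1 hv
  have b4 := abs_le.1 hu
  have k1 : 0 ≤ Z - l * W := by
    have : Z - l * W = ρ * (τ - l) + u * (c - l) + v + 2 * K * δ ^ 2 := by rw [hZ, hW]; ring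
    rw [this]; nlinarith [mul_nonneg hρ (sub_nonneg.2 hτ.1)]
  have k2 : 0 ≤ r * W - Z := by
    have : r * W - Z = ρ * (r - τ) + u * (r - c) - v + 2 * K * δ ^ 2 := by
      rw [hZ, hW, hδd]; ring
    rw [this]; nlinarith [mul_nonneg hρ (sub_nonneg.2 hτ.2)]
  refine ⟨(r * W - Z) / (H * δ), (Z - l * W) / (H * δ), by positivity, by positivity, ?_, ?_, ?_⟩
  · rw [← add_div, div_le_one (by positivity)]
    have : W ≤ H := by rw [hW]; linarith
    have e : r * W - Z + (Z - l * W) = W * δ := by rw [hδd]; ring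
    rw [e]; nlinarith
  · have : H * ((r * W - Z) / (H * δ) + (Z - l * W) / (H * δ)) = W := by
      field_simp; rw [hδd]; ring
    rw [this, hW]; ring
  · have : H * ((r * W - Z) / (H * δ) * l + (Z - l * W) / (H * δ) * r) = Z := by
      field_simp; rw [hδd]; ring
    rw [this, hZ]; ring

lemma close_bd {κ d H Rc n ω M I : ℝ} (hκ : 0 ≤ κ) (hd : 0 ≤ d) (hn : 1 ≤ n)
    (hH : |H ^ 2 - Rc ^ 2| ≤ ω * M) (hI : |I - d * (Rc ^ 2 / (2 * n))| ≤ ω * d) :
    |κ * (d * (H ^ 2 / (2 * n))) - κ * I| ≤ κ * ω * (M + 1) * d := by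
  have hn0 : 0 < n := by linarith
  have h0 : 0 ≤ ω * M := le_trans (abs_nonneg _) hH
  have e : κ * (d * (H ^ 2 / (2 * n))) - κ * I =
      κ * (d * ((H ^ 2 - Rc ^ 2) / (2 * n)) - (I - d * (Rc ^ 2 / (2 * n)))) := by ring
  have h1 : |(H ^ 2 - Rc ^ 2) / (2 * n)| ≤ ω * M := by
    rw [abs_div, abs_of_pos (by positivity : 0 < 2 * n), div_le_iff₀ (by positivity)]
    nlinarith
  rw [e, abs_mul, abs_of_nonneg hκ]
  have h2 := abs_sub (d * ((H ^ 2 - Rc ^ 2) / (2 * n))) (I - d * (Rc ^ 2 / (2 * n)))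
  rw [abs_mul, abs_of_nonneg hd] at h2
  have h3 := mul_le_mul_of_nonneg_left h1 hd
  calc _ ≤ κ * (d * (ω * M) + ω * d) := mul_le_mul_of_nonneg_left (by linarith) hκ
    _ = _ := by ring

theorem radial_sweep
    (e a b p₀ : E3) (he : ‖e‖ = 1)
    (ha : inner ℝ a e = 0) (hb : inner ℝ b e = 0)
    (hab : LinearIndependent ℝ ![a, b]) (L : ℝ) (hL : 0 < L) (α β : ℝ) (hαβ : α < β)
    (R : ℝ → ℝ) (hR : ContinuousOn R (Set.Icc α β)) (hR0 : ∀ t ∈ Set.Icc α β, 0 ≤ R t)
    (w : ℝ → E3) (hw : ∀ t ∈ Set.Icc α β, inner ℝ (w t) e = 0)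
    (lam : ℝ → ℝ) (hlam : ContinuousOn lam (Set.Icc α β))
    (hw' : ∀ t ∈ Set.Icc α β, HasDerivWithinAt w (lam t • (a + t • b)) (Set.Icc α β) t)
    (η : ℝ) (hη : 0 < η) :
    ∃ δ : ℝ, 0 < δ ∧ ∀ l r c : ℝ, α ≤ l → l < r → r ≤ β → r - l ≤ δ → l ≤ c ∧ c ≤ r →
      ∃ p q r' : E3, (inner ℝ p (e + w c) = 0 ∧ inner ℝ q (e + w c) = 0 ∧ inner ℝ r' (e + w c) = 0) ∧
        AffineIndependent ℝ ![p, q, r'] ∧
        {x : E3 | ∃ τ ∈ Set.Icc l r, ∃ ρ ∈ Set.Icc 0 (R τ), ∃ s : ℝ, abs s ≤ L ∧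
            x = p₀ + ρ • (a + τ • b) + s • (e + w τ)} ⊆
          {x : E3 | ∃ y ∈ convexHull ℝ {p, q, r'}, ∃ σ : ℝ, x = y + σ • (e + w c)} ∧
        |(μHE[2] (convexHull ℝ ({p, q, r'} : Set E3))).toReal -
          gram a b * ∫ τ in l..r, R τ ^ 2 / (2 * Real.sqrt (1 + ‖w τ‖ ^ 2))| ≤ η * (r - l) ∧
        |(μHE[2] (prj (unit (e + w c)) '' {x : E3 | ∃ τ ∈ Set.Icc l r, ∃ ρ ∈ Set.Icc 0 (R τ),
            ∃ s : ℝ, abs s ≤ L ∧ x = p₀ + ρ • (a + τ • b) + s • (e + w τ)})).toReal -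
          gram a b * ∫ τ in l..r, R τ ^ 2 / (2 * Real.sqrt (1 + ‖w τ‖ ^ 2))| ≤ η * (r - l) := by
  have hκ := gram_pos hab
  set κ := gram a b with hκd
  have hwc : ContinuousOn w (Icc α β) := fun t ht => (hw' t ht).continuousWithinAt
  obtain ⟨Λ, hΛ⟩ := isCompact_Icc.exists_bound_of_continuousOn hlam
  obtain ⟨Rm, hRm⟩ := isCompact_Icc.exists_bound_of_continuousOn hR
  simp only [Real.norm_eq_abs] at hΛ hRm
  have hΛ0 : 0 ≤ Λ := le_trans (abs_nonneg _) (hΛ α ⟨le_rfl, hαβ.le⟩)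
  have hRm0 : 0 ≤ Rm := le_trans (abs_nonneg _) (hRm α ⟨le_rfl, hαβ.le⟩)
  set G : ℝ → ℝ := fun τ => R τ ^ 2 / (2 * Real.sqrt (1 + ‖w τ‖ ^ 2)) with hG
  have hGc : ContinuousOn G (Icc α β) := by
    apply ContinuousOn.div (hR.pow 2)
      (continuousOn_const.mul ((continuousOn_const.add (hwc.norm.pow 2)).sqrt))
    intro t _
    change 2 * Real.sqrt (1 + ‖w t‖ ^ 2) ≠ 0
    positivity
  set M := 4 * Rm + 4 with hM
  set ω := min 1 (η / (κ * (M + 1))) with hω
  have hω0 : 0 < ω := by positivity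
  have hω1 : ω ≤ 1 := min_le_left _ _
  have hω2 : κ * ω * (M + 1) ≤ η := by
    have : ω ≤ η / (κ * (M + 1)) := min_le_right _ _
    rw [le_div_iff₀ (by positivity)] at this
    linarith
  obtain ⟨δ1, hδ1, u1⟩ := Metric.uniformContinuousOn_iff_le.1
    (isCompact_Icc.uniformContinuousOn_of_continuous hR) ω hω0
  obtain ⟨δ2, hδ2, u2⟩ := Metric.uniformContinuousOn_iff_le.1
    (isCompact_Icc.uniformContinuousOn_of_continuous hGc) ω hω0
  set K := L * Λ with hK
  have hK0 : 0 ≤ K := by positivity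
  refine ⟨min (min δ1 δ2) (ω / (5 * K + 1)), by positivity, fun l r c hl hlr hr hδ hc => ?_⟩
  have d1 : r - l ≤ δ1 := hδ.trans ((min_le_left _ _).trans (min_le_left _ _))
  have d2 : r - l ≤ δ2 := hδ.trans ((min_le_left _ _).trans (min_le_right _ _))
  have d3 : 5 * K * (r - l) ≤ ω := by
    have : r - l ≤ ω / (5 * K + 1) := hδ.trans (min_le_right _ _)
    rw [le_div_iff₀ (by positivity)] at this
    nlinarith
  have hsub : Icc l r ⊆ Icc α β := Icc_subset_Icc hl hr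
  have hcm : c ∈ Icc α β := hsub hc
  have dist_le : ∀ τ ∈ Icc l r, |τ - c| ≤ r - l := by
    intro τ hτ; rw [abs_le]; constructor <;> linarith [hτ.1, hτ.2, hc.1, hc.2]
  have oR : ∀ τ ∈ Icc l r, |R τ - R c| ≤ ω := fun τ hτ =>
    u1 τ (hsub hτ) c hcm ((dist_le τ hτ).trans d1)
  have oG : ∀ τ ∈ Icc l r, |G τ - G c| ≤ ω := fun τ hτ =>
    u2 τ (hsub hτ) c hcm ((dist_le τ hτ).trans d2)
  have hI : |(∫ τ in l..r, G τ) - (r - l) * G c| ≤ ω * (r - l) := by
    have i1 : IntervalIntegrable G volume l r :=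
      (hGc.mono (by rw [uIcc_of_le hlr.le]; exact hsub)).intervalIntegrable
    have : (∫ τ in l..r, G τ) - (r - l) * G c = ∫ τ in l..r, (G τ - G c) := by
      rw [intervalIntegral.integral_sub i1 (by simp)]; simp
    rw [this, ← Real.norm_eq_abs]
    refine (intervalIntegral.norm_integral_le_of_norm_le_const (C := ω) ?_).trans
      (by rw [abs_of_pos (by linarith)])
    intro t ht
    rw [uIoc_of_le hlr.le] at ht
    exact oG t (Ioc_subset_Icc_self ht)
  have hd := sweep_ne he (hw c hcm)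
  have hu := norm_unit hd
  set d := e + w c with hdd
  have hn1 : 1 ≤ Real.sqrt (1 + ‖w c‖ ^ 2) := by
    apply Real.le_sqrt_of_sq_le; nlinarith [sq_nonneg ‖w c‖]
  have Rc0 := hR0 c hcm
  have Rc1 := (abs_le.1 (hRm c hcm)).2
  set H := R c + 2 * ω with hH
  have hH0 : 0 < H := by positivity
  set m := max (R c - ω) 0 with hm
  have hm0 : 0 ≤ m := le_max_right _ _
  set P := p₀ + (-(4 * K * (r - l))) • a + (-(4 * K * (r - l)) * l - 2 * K * (r - l) ^ 2) • b with hP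
  set S := {x : E3 | ∃ τ ∈ Set.Icc l r, ∃ ρ ∈ Set.Icc 0 (R τ),
            ∃ s : ℝ, abs s ≤ L ∧ x = p₀ + ρ • (a + τ • b) + s • (e + w τ)} with hS
  have hmem : ∀ x ∈ S, prj (unit d) x ∈ convexHull ℝ {prj (unit d) P,
      prj (unit d) (P + H • (a + l • b)), prj (unit d) (P + H • (a + r • b))} := by
    rintro x ⟨τ, hτ, ρ, hρ, s, hs, rfl⟩
    obtain ⟨φ, ψ, h1, h2, h3⟩ := w_increment hlam hΛ hw' hcm (hsub hτ)
    have b0 := dist_le τ hτ
    have b1 : |s * φ| ≤ K * (r - l) := by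
      refine (abs_mul_le' hs h1).trans ?_
      rw [hK, mul_assoc]; gcongr
    have b2 : |s * ψ| ≤ K * (r - l) * (r - l) := by
      refine (abs_mul_le' hs h2).trans ?_
      rw [hK, mul_assoc L, mul_assoc L]; gcongr
    obtain ⟨α', β', k1, k2, k3, k4, k5⟩ := sweep_sector hlr hc hτ hρ.1 b1 b2 hH0
      (by linarith [hρ.2, (abs_le.1 (oR τ hτ)).2])
    refine mem_convexHull_three.2 ⟨α', β', k1, k2, k3, ?_⟩
    have : p₀ + ρ • (a + τ • b) + s • (e + w τ) = P + α' • (P + H • (a + l • b) - P) +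
        β' • (P + H • (a + r • b) - P) + s • d := by
      rw [h3, hdd, hP]
      linear_combination (norm := module) k4 • a + k5 • b
    rw [this]
    simp only [map_add, prj_smul_self hd, map_smul, map_sub, add_zero]
  have aU : (μHE[2] (convexHull ℝ ({prj (unit d) P, prj (unit d) (P + H • (a + l • b)),
      prj (unit d) (P + H • (a + r • b))} : Set E3))).toReal =
      κ * ((r - l) * (H ^ 2 / (2 * Real.sqrt (1 + ‖w c‖ ^ 2)))) := by
    rw [toReal_triangle, gram_sweep he ha hb (hw c hcm) _ _ _ _ hlr.le]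
  have aL : (μHE[2] (convexHull ℝ ({prj (unit d) p₀, prj (unit d) (p₀ + m • (a + l • b)),
      prj (unit d) (p₀ + m • (a + r • b))} : Set E3))).toReal =
      κ * ((r - l) * (m ^ 2 / (2 * Real.sqrt (1 + ‖w c‖ ^ 2)))) := by
    rw [toReal_triangle, gram_sweep he ha hb (hw c hcm) _ _ _ _ hlr.le]
  have cU := close_bd (H := H) (M := M) hκ.le (by linarith : 0 ≤ r - l) hn1 (by
    rw [hH, hM, abs_of_nonneg (by nlinarith)]; nlinarith) hI
  have cL := close_bd (H := m) (M := M) hκ.le (by linarith : 0 ≤ r - l) hn1 (by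
    have h1 : m ≤ R c := max_le (by linarith) Rc0
    have h2 : R c - ω ≤ m := le_max_left _ _
    rw [hM, abs_sub_comm, abs_of_nonneg (by nlinarith)]; nlinarith) hI
  have hfin : κ * ω * (M + 1) * (r - l) ≤ η * (r - l) :=
    mul_le_mul_of_nonneg_right hω2 (by linarith)
  have inner_d : ∀ y, inner ℝ (prj (unit d) y) d = 0 := by
    intro y
    have := prj_inner hu y
    rw [unit, real_inner_smul_right] at this
    rcases mul_eq_zero.1 this with h | h
    · exact absurd h (inv_ne_zero (norm_ne_zero_iff.2 hd))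
    · exact h
  refine ⟨prj (unit d) P, prj (unit d) (P + H • (a + l • b)), prj (unit d) (P + H • (a + r • b)),
    ⟨inner_d _, inner_d _, inner_d _⟩, ?_, ?_, ?_, ?_⟩
  · apply affInd_of_gram
    have := gram_sweep he ha hb (hw c hcm) P H l r hlr.le
    have h2 : 0 < κ * ((r - l) * (H ^ 2 / (2 * Real.sqrt (1 + ‖w c‖ ^ 2)))) :=
      mul_pos hκ (mul_pos (by linarith) (by positivity))
    rw [← hdd, ← hκd] at this
    linarith
  · intro x hx
    refine ⟨_, hmem x hx, inner ℝ x d / ‖d‖ ^ 2, ?_⟩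
    rw [← prj_unit_eq]; abel
  · rw [aU]; exact cU.trans hfin
  · have s1 : prj (unit d) '' S ⊆ convexHull ℝ {prj (unit d) P,
        prj (unit d) (P + H • (a + l • b)), prj (unit d) (P + H • (a + r • b))} := by
      rintro _ ⟨x, hx, rfl⟩; exact hmem x hx
    have s2 : convexHull ℝ {prj (unit d) p₀, prj (unit d) (p₀ + m • (a + l • b)),
        prj (unit d) (p₀ + m • (a + r • b))} ⊆ prj (unit d) '' S := by
      intro y hy
      obtain ⟨α', β', k1, k2, k3, rfl⟩ := mem_convexHull_three.1 hy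
      obtain ⟨τ, hτ, hτe⟩ : ∃ τ ∈ Icc l r, (α' + β') * τ = α' * l + β' * r := by
        rcases (add_nonneg k1 k2).eq_or_lt with h | h
        · refine ⟨l, ⟨le_rfl, hlr.le⟩, ?_⟩
          have : β' = 0 := by linarith
          rw [this]; ring
        · refine ⟨(α' * l + β' * r) / (α' + β'), ⟨?_, ?_⟩, by field_simp⟩
          · rw [le_div_iff₀ h]; nlinarith
          · rw [div_le_iff₀ h]; nlinarith
      have hmR : m ≤ R τ := max_le (by linarith [(abs_le.1 (oR τ hτ)).1]) (hR0 τ (hsub hτ))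
      refine ⟨p₀ + ((α' + β') * m) • (a + τ • b) + (0 : ℝ) • (e + w τ),
        ⟨τ, hτ, (α' + β') * m, ⟨by positivity, by nlinarith⟩, 0, by simpa using hL.le, rfl⟩, ?_⟩
      have : p₀ + ((α' + β') * m) • (a + τ • b) + (0 : ℝ) • (e + w τ) =
          p₀ + α' • (p₀ + m • (a + l • b) - p₀) + β' • (p₀ + m • (a + r • b) - p₀) := by
        linear_combination (norm := module) (m * hτe) • b
      rw [this]
      simp only [map_add, map_smul, map_sub]
    have fin1 : μHE[2] (convexHull ℝ ({prj (unit d) P, prj (unit d) (P + H • (a + l • b)),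
        prj (unit d) (P + H • (a + r • b))} : Set E3)) ≠ ∞ := by
      rw [measure_triangle]; exact ENNReal.ofReal_ne_top
    have m1 := measure_mono (μ := μHE[2]) s1
    have m2 := measure_mono (μ := μHE[2]) s2
    have t1 := ENNReal.toReal_mono fin1 m1
    have t2 := ENNReal.toReal_mono (ne_top_of_le_ne_top fin1 m1) m2
    rw [aU] at t1
    rw [aL] at t2
    have cU' := abs_le.1 (cU.trans hfin)
    have cL' := abs_le.1 (cL.trans hfin)
    rw [abs_le]
    constructor <;> linarith [cU'.2, cL'.1]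

end Crest.Agent.R211
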